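import Mathlib

/-!
# S0151 (lone statement, row 113) — package C1 (helper12)

`inner_log_le_of_partition`: tangent-line bound for `⟨ξ, log(T* T + ε) ξ⟩` on the pieces of an
orthogonal decomposition of `ξ` by self-adjoint operators commuting with `T`.
-/

set_option autoImplicit false

namespace Crest.Agent.S0151.Helper12

open RCLike

variable {H : Type*} [NormedAddCommGroup H] [InnerProductSpace ℂ H] [CompleteSpace H]

theorem isSelfAdjoint_B (T : H →L[ℂ] H) (ε : ℝ) :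
    IsSelfAdjoint (star T * T + ((ε : ℝ) : ℂ) • (1 : H →L[ℂ] H)) := by
  refine (IsSelfAdjoint.star_mul_self T).add ?_
  exact IsSelfAdjoint.smul (by simp [IsSelfAdjoint]) (IsSelfAdjoint.one _)

omit [CompleteSpace H] in
theorem algebraMap_real_eq (c : ℝ) :
    algebraMap ℝ (H →L[ℂ] H) c = ((c : ℝ) : ℂ) • (1 : H →L[ℂ] H) := by
  rw [Algebra.algebraMap_eq_smul_one]
  ext x
  simp

/-- The spectrum of `T* T + ε` lies in `[ε, ∞)`. -/
theorem le_of_mem_spectrum (T : H →L[ℂ] H) (ε : ℝ) {x : ℝ}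
    (hx : x ∈ spectrum ℝ (star T * T + ((ε : ℝ) : ℂ) • (1 : H →L[ℂ] H))) : ε ≤ x := by
  have h1 : algebraMap ℝ (H →L[ℂ] H) ε ≤ star T * T + ((ε : ℝ) : ℂ) • (1 : H →L[ℂ] H) := by
    rw [algebraMap_real_eq]
    exact le_add_of_nonneg_left (star_mul_self_nonneg T)
  exact (algebraMap_le_iff_le_spectrum (isSelfAdjoint_B T ε)).mp h1 x hx


/-- One piece: tangent-line bound `log x ≤ log α + x / α - 1` as an operator inequality. -/
theorem re_inner_log_le (T : H →L[ℂ] H) (ε : ℝ) (hε : 0 < ε) (η : H) (a : ℝ) (ha : 0 ≤ a)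
    (hT : ‖T η‖ ^ 2 ≤ a * ‖η‖ ^ 2) :
    RCLike.re (inner ℂ η
        (cfc Real.log (star T * T + ((ε : ℝ) : ℂ) • (1 : H →L[ℂ] H)) η))
      ≤ ‖η‖ ^ 2 * Real.log (a + ε) := by
  set B : H →L[ℂ] H := star T * T + ((ε : ℝ) : ℂ) • (1 : H →L[ℂ] H) with hBdef
  have hBsa : IsSelfAdjoint B := isSelfAdjoint_B T ε
  have hspec : ∀ x ∈ spectrum ℝ B, ε ≤ x := fun x hx => le_of_mem_spectrum T ε hx
  have hα : 0 < a + ε := by linarith
  have hlogc : ContinuousOn Real.log (spectrum ℝ B) :=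
    Real.continuousOn_log.mono fun x hx => ne_of_gt (lt_of_lt_of_le hε (hspec x hx))
  have hgc : ContinuousOn (fun x : ℝ => (Real.log (a + ε) - 1) + (a + ε)⁻¹ * x) (spectrum ℝ B) :=
    (continuous_const.add (continuous_const.mul continuous_id)).continuousOn
  have hle : cfc Real.log B ≤ cfc (fun x : ℝ => (Real.log (a + ε) - 1) + (a + ε)⁻¹ * x) B := by
    refine cfc_mono (fun x hx => ?_) hlogc hgc
    have hx0 : 0 < x := lt_of_lt_of_le hε (hspec x hx)
    have h1 := Real.log_le_sub_one_of_pos (div_pos hx0 hα)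
    rw [Real.log_div hx0.ne' hα.ne'] at h1
    have h2 : x / (a + ε) = (a + ε)⁻¹ * x := by ring
    linarith
  have hG : cfc (fun x : ℝ => (Real.log (a + ε) - 1) + (a + ε)⁻¹ * x) B
      = (((Real.log (a + ε) - 1 : ℝ) : ℂ)) • (1 : H →L[ℂ] H) + ((((a + ε)⁻¹ : ℝ) : ℂ)) • B := by
    rw [cfc_const_add (Real.log (a + ε) - 1) (fun x : ℝ => (a + ε)⁻¹ * x) B,
      cfc_const_mul_id (a + ε)⁻¹ B, algebraMap_real_eq]
    congr 1
  rw [hG] at hle
  have hpos := (ContinuousLinearMap.nonneg_iff_isPositive _).mp (sub_nonneg.mpr hle)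
  have h3 := hpos.re_inner_nonneg_right η
  have e0 : inner ℂ η (((((Real.log (a + ε) - 1 : ℝ) : ℂ)) • (1 : H →L[ℂ] H)
        + ((((a + ε)⁻¹ : ℝ) : ℂ)) • B - cfc Real.log B) η)
      = ((Real.log (a + ε) - 1 : ℝ) : ℂ) * inner ℂ η η
        + (((a + ε)⁻¹ : ℝ) : ℂ) * inner ℂ η (B η) - inner ℂ η (cfc Real.log B η) := by
    simp only [sub_apply, add_apply, smul_apply, one_apply_eq_self, inner_sub_right,
      inner_add_right, inner_smul_right]
  rw [e0] at h3
  have h3' : 0 ≤ (((Real.log (a + ε) - 1 : ℝ) : ℂ) * inner ℂ η η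
        + (((a + ε)⁻¹ : ℝ) : ℂ) * inner ℂ η (B η) - inner ℂ η (cfc Real.log B η)).re := h3
  rw [Complex.sub_re, Complex.add_re, Complex.re_ofReal_mul, Complex.re_ofReal_mul] at h3'
  have e1 : inner ℂ η (B η) = inner ℂ (T η) (T η) + (ε : ℂ) * inner ℂ η η := by
    rw [hBdef]
    simp only [add_apply, smul_apply, mul_apply_eq_comp, one_apply_eq_self, inner_add_right,
      inner_smul_right, ContinuousLinearMap.star_eq_adjoint,
      ContinuousLinearMap.adjoint_inner_right]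
  have h5 : ∀ v : H, (inner ℂ v v).re = ‖v‖ ^ 2 := fun v => inner_self_eq_norm_sq (𝕜 := ℂ) v
  have h4 : (inner ℂ η (B η)).re = ‖T η‖ ^ 2 + ε * ‖η‖ ^ 2 := by
    rw [e1, Complex.add_re, Complex.re_ofReal_mul, h5, h5]
  rw [h4, h5] at h3'
  have h7 : (a + ε)⁻¹ * (‖T η‖ ^ 2 + ε * ‖η‖ ^ 2) ≤ ‖η‖ ^ 2 := by
    rw [inv_mul_le_iff₀ hα]
    nlinarith
  show (inner ℂ η (cfc Real.log B η)).re ≤ ‖η‖ ^ 2 * Real.log (a + ε)
  linarith


/-- **Package C1**: tangent-line bound on the pieces of an orthogonal decomposition of the vector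
by self-adjoint operators commuting with `T`. -/
theorem inner_log_le_of_partition (T : H →L[ℂ] H) {m : ℕ} (P : Fin m → H →L[ℂ] H)
    (η : Fin m → H) (a : Fin m → ℝ)
    (hPsa : ∀ j, IsSelfAdjoint (P j)) (hPT : ∀ j, P j * T = T * P j)
    (hPη : ∀ j, P j (η j) = η j) (hPη0 : ∀ i j, i ≠ j → P i (η j) = 0)
    (ha : ∀ j, 0 ≤ a j) (hT : ∀ j, ‖T (η j)‖ ^ 2 ≤ a j * ‖η j‖ ^ 2) (ε : ℝ) (hε : 0 < ε) :
    RCLike.re (inner ℂ (∑ j, η j)
        (cfc Real.log (star T * T + ((ε : ℝ) : ℂ) • (1 : H →L[ℂ] H)) (∑ j, η j)))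
      ≤ ∑ j, ‖η j‖ ^ 2 * Real.log (a j + ε) := by
  set B : H →L[ℂ] H := star T * T + ((ε : ℝ) : ℂ) • (1 : H →L[ℂ] H) with hBdef
  -- `P j` commutes with `T*`, hence with `B` and with `log B`
  have hPstarT : ∀ j, P j * star T = star T * P j := by
    intro j
    have h := congrArg star (hPT j)
    simp only [star_mul, (hPsa j).star_eq] at h
    exact h.symm
  have hPB : ∀ j, Commute B (P j) := by
    intro j
    show B * P j = P j * B
    rw [hBdef, add_mul, mul_add, mul_assoc, ← hPT j, ← mul_assoc, ← hPstarT j, mul_assoc,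
      smul_mul_assoc, mul_smul_comm, one_mul, mul_one]
  have hPL : ∀ j, Commute (cfc Real.log B) (P j) := fun j => (hPB j).cfc_real Real.log
  -- cross terms vanish
  have hcross : ∀ i j, i ≠ j → inner ℂ (η i) (cfc Real.log B (η j)) = 0 := by
    intro i j hij
    have h1 : cfc Real.log B (η j) = P j (cfc Real.log B (η j)) := by
      have h := congrArg (fun X : H →L[ℂ] H => X (η j)) (hPL j).eq
      simp only [mul_apply_eq_comp, hPη j] at h
      exact h
    have h2 : inner ℂ (η i) (P j (cfc Real.log B (η j)))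
        = inner ℂ (P j (η i)) (cfc Real.log B (η j)) := by
      rw [← ContinuousLinearMap.adjoint_inner_left, ← ContinuousLinearMap.star_eq_adjoint,
        (hPsa j).star_eq]
    rw [h1, h2, hPη0 j i (Ne.symm hij), inner_zero_left]
  have hsum : inner ℂ (∑ j, η j) (cfc Real.log B (∑ j, η j))
      = ∑ j, inner ℂ (η j) (cfc Real.log B (η j)) := by
    rw [map_sum, sum_inner]
    refine Finset.sum_congr rfl fun i _ => ?_
    rw [inner_sum]
    exact Finset.sum_eq_single i (fun j _ hji => hcross i j (Ne.symm hji))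
      (fun h => absurd (Finset.mem_univ i) h)
  rw [hsum, map_sum]
  exact Finset.sum_le_sum fun j _ => re_inner_log_le T ε hε (η j) (a j) (ha j) (hT j)

end Crest.Agent.S0151.Helper12
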