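import Mathlib

/-!
# S0151 (lone statement) — package A2: the tracial Fuglede–Kadison core

For a bounded operator `S` on a complex Hilbert space with `∑ ‖S^n‖ < ∞`, a unit vector `ξ`
whose vector state `φ X = ⟨ξ, X ξ⟩` is tracial on a closed star-subalgebra containing `S` and
kills the powers `S^n` (`n ≥ 1`):  `φ (log ((1 - S)* (1 - S))) = 0`.

Proof: `A t = 1 - t S`, `P t = (A t)* (A t)`, `Y t = 1 - P t / b`; the logarithm series
`log (P t) = log b - ∑ Y t ^ (n+1) / (n+1)` converges uniformly in `t ∈ [0, 1]`; the derivative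
of the state of the `m`-th partial sum is `-φ ((∑_{n<m} Y^n) Y')` by traciality, and
`∑_{n<m} Y^n = (1 - Y^m) b R R*` with `R = (A t)⁻¹ = ∑ t^n S^n`, `φ (R R* b Y') = 0` by the
vanishing moments; the mean value inequality finishes.
-/

set_option autoImplicit false

namespace Crest.Agent.S0151.Helper21

open Polynomial Filter Topology

variable {H : Type*} [NormedAddCommGroup H] [InnerProductSpace ℂ H] [CompleteSpace H]

/-! ### The logarithm series -/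

/-- Scalar estimate behind the logarithm series. -/
theorem abs_log_sub_poly_le {a b x : ℝ} (ha : 0 < a) (hab : a ≤ b) (hx : x ∈ Set.Icc a b)
    (m : ℕ) :
    |Real.log x - (Real.log b - ∑ n ∈ Finset.range m, (1 - b⁻¹ * x) ^ (n + 1) / ((n : ℝ) + 1))|
      ≤ (1 - a / b) ^ (m + 1) / (a / b) := by
  have hb : 0 < b := ha.trans_le hab
  have hx0 : 0 < x := ha.trans_le hx.1
  set u : ℝ := 1 - b⁻¹ * x with hu
  have hu0 : 0 ≤ u := by
    rw [hu, sub_nonneg, inv_mul_le_iff₀ hb]; simpa using hx.2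
  have hu1 : u ≤ 1 - a / b := by
    rw [hu, div_eq_inv_mul]
    have : b⁻¹ * a ≤ b⁻¹ * x := mul_le_mul_of_nonneg_left hx.1 (inv_nonneg.mpr hb.le)
    linarith
  have hρ : 1 - a / b < 1 := by
    have : 0 < a / b := div_pos ha hb
    linarith
  have hu' : |u| < 1 := by rw [abs_of_nonneg hu0]; exact hu1.trans_lt hρ
  have key := Real.abs_log_sub_add_sum_range_le hu' m
  have h1 : Real.log (1 - u) = Real.log x - Real.log b := by
    rw [hu, sub_sub_cancel, Real.log_mul (inv_ne_zero hb.ne') hx0.ne', Real.log_inv]; ring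
  have h2 : Real.log x - (Real.log b - ∑ n ∈ Finset.range m, u ^ (n + 1) / ((n : ℝ) + 1))
      = (∑ i ∈ Finset.range m, u ^ (i + 1) / ((i : ℝ) + 1)) + Real.log (1 - u) := by
    rw [h1]; ring
  rw [h2]
  refine key.trans ?_
  rw [abs_of_nonneg hu0]
  have hden : 0 < 1 - u := by linarith
  have hab' : a / b ≤ 1 - u := by linarith
  calc u ^ (m + 1) / (1 - u) ≤ (1 - a / b) ^ (m + 1) / (1 - u) := by
        gcongr
    _ ≤ (1 - a / b) ^ (m + 1) / (a / b) := by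
        apply div_le_div_of_nonneg_left (pow_nonneg (hu0.trans hu1) _) (div_pos ha hb) hab'

/-- **Logarithm series.** For a self-adjoint operator with spectrum in `[a, b]`, `0 < a ≤ b`. -/
theorem norm_cfc_log_sub_partial_le (P : H →L[ℂ] H) (hP : IsSelfAdjoint P) (a b : ℝ)
    (ha : 0 < a) (hab : a ≤ b) (hspec : spectrum ℝ P ⊆ Set.Icc a b) (m : ℕ) :
    ‖cfc Real.log P - (Real.log b • (1 : H →L[ℂ] H)
        - ∑ n ∈ Finset.range m, (((n : ℝ) + 1)⁻¹) • (1 - b⁻¹ • P) ^ (n + 1))‖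
      ≤ (1 - a / b) ^ (m + 1) / (a / b) := by
  have hb : 0 < b := ha.trans_le hab
  set g : ℝ → ℝ := fun x =>
    Real.log b - ∑ n ∈ Finset.range m, (1 - b⁻¹ * x) ^ (n + 1) / ((n : ℝ) + 1) with hg
  have hlogc : ContinuousOn Real.log (spectrum ℝ P) :=
    Real.continuousOn_log.mono fun x hx => (ha.trans_le (hspec hx).1).ne'
  have hgc : Continuous g := by rw [hg]; fun_prop
  -- identify the polynomial expression with `cfc g P`
  have hpoly : cfc g P = Real.log b • (1 : H →L[ℂ] H)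
      - ∑ n ∈ Finset.range m, (((n : ℝ) + 1)⁻¹) • (1 - b⁻¹ • P) ^ (n + 1) := by
    set q : ℝ[X] := C (Real.log b)
      - ∑ n ∈ Finset.range m, C (((n : ℝ) + 1)⁻¹) * (1 - C b⁻¹ * X) ^ (n + 1) with hq
    have hgq : g = fun x => q.eval x := by
      funext x
      simp [hg, hq, Polynomial.eval_finsetSum, div_eq_inv_mul]
    rw [hgq, cfc_polynomial q P hP, hq]
    simp [map_sub, map_sum, Algebra.smul_def]
  rw [← hpoly, ← cfc_sub Real.log g P hlogc hgc.continuousOn]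
  refine norm_cfc_le (by
    have : 0 < a / b := div_pos ha hb
    have h1 : 0 ≤ 1 - a / b := by
      rw [sub_nonneg, div_le_one hb]; exact hab
    positivity) fun x hx => ?_
  rw [Real.norm_eq_abs]
  exact abs_log_sub_poly_le ha hab (hspec hx) m

/-- The norm of `1 - P / b` for a self-adjoint `P` with spectrum in `[a, b]`. -/
theorem norm_one_sub_smul_le (P : H →L[ℂ] H) (hP : IsSelfAdjoint P) (a b : ℝ)
    (ha : 0 < a) (hab : a ≤ b) (hspec : spectrum ℝ P ⊆ Set.Icc a b) :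
    ‖(1 : H →L[ℂ] H) - b⁻¹ • P‖ ≤ 1 - a / b := by
  have hb : 0 < b := ha.trans_le hab
  have h : (1 : H →L[ℂ] H) - b⁻¹ • P = cfc (fun x : ℝ => (1 - C b⁻¹ * X : ℝ[X]).eval x) P := by
    rw [cfc_polynomial _ P hP]
    simp [Algebra.smul_def]
  rw [h]
  refine norm_cfc_le (by rw [sub_nonneg, div_le_one hb]; exact hab) fun x hx => ?_
  have hx' := hspec hx
  have h1 : b⁻¹ * a ≤ b⁻¹ * x := mul_le_mul_of_nonneg_left hx'.1 (inv_nonneg.mpr hb.le)
  have h2 : b⁻¹ * x ≤ 1 := by rw [inv_mul_le_iff₀ hb]; simpa using hx'.2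
  have h3 : 0 < a / b := div_pos ha hb
  rw [Real.norm_eq_abs, abs_le]
  simp only [eval_sub, eval_one, eval_mul, eval_C, eval_X]
  rw [div_eq_inv_mul]
  rw [div_eq_inv_mul] at h3
  constructor <;> linarith

/-! ### The vector state -/

/-- The vector state `X ↦ ⟨ξ, X ξ⟩` as a real-linear continuous functional. -/
noncomputable def tauL (ξ : H) : (H →L[ℂ] H) →L[ℝ] ℂ :=
  ((innerSL ℂ ξ).comp (ContinuousLinearMap.apply ℂ H ξ)).restrictScalars ℝ

omit [CompleteSpace H] in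
theorem tauL_apply (ξ : H) (X : H →L[ℂ] H) : tauL ξ X = inner ℂ ξ (X ξ) := rfl

omit [CompleteSpace H] in
theorem norm_tauL_le (ξ : H) (hξ : ‖ξ‖ = 1) (X : H →L[ℂ] H) : ‖tauL ξ X‖ ≤ ‖X‖ := by
  rw [tauL_apply]
  calc ‖inner ℂ ξ (X ξ)‖ ≤ ‖ξ‖ * ‖X ξ‖ := norm_inner_le_norm _ _
    _ ≤ ‖ξ‖ * (‖X‖ * ‖ξ‖) := by gcongr; exact X.le_opNorm ξ
    _ = ‖X‖ := by rw [hξ]; ring

theorem tauL_star (ξ : H) (X : H →L[ℂ] H) :
    tauL ξ (star X) = starRingEnd ℂ (tauL ξ X) := by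
  rw [tauL_apply, tauL_apply, ContinuousLinearMap.star_eq_adjoint,
    ContinuousLinearMap.adjoint_inner_right, inner_conj_symm]

/-! ### Membership of real multiples -/

theorem real_smul_mem (𝒜 : StarSubalgebra ℂ (H →L[ℂ] H)) (r : ℝ) {X : H →L[ℂ] H}
    (hX : X ∈ 𝒜) : r • X ∈ 𝒜 := by
  rw [← Complex.coe_smul]; exact 𝒜.smul_mem hX _

/-! ### The Neumann series -/

theorem neumann (S : H →L[ℂ] H) (hsum : Summable fun n : ℕ => ‖S ^ n‖) (t : ℝ)
    (ht : t ∈ Set.Icc (0 : ℝ) 1) :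
    ∃ R : H →L[ℂ] H, HasSum (fun n : ℕ => t ^ n • S ^ n) R ∧ ‖R‖ ≤ ∑' n, ‖S ^ n‖ ∧
      (1 - t • S) * R = 1 ∧ R * (1 - t • S) = 1 := by
  have hnorm : ∀ n : ℕ, ‖(t • S) ^ n‖ ≤ ‖S ^ n‖ := by
    intro n
    rw [_root_.smul_pow, norm_smul, norm_pow, Real.norm_eq_abs, abs_of_nonneg ht.1]
    calc t ^ n * ‖S ^ n‖ ≤ 1 * ‖S ^ n‖ := by
          gcongr; exact pow_le_one₀ ht.1 ht.2
      _ = ‖S ^ n‖ := one_mul _
  have hsn : Summable fun n : ℕ => ‖(t • S) ^ n‖ :=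
    Summable.of_nonneg_of_le (fun _ => norm_nonneg _) hnorm hsum
  have hs : Summable fun n : ℕ => (t • S) ^ n := hsn.of_norm
  refine ⟨∑' n, (t • S) ^ n, ?_, ?_, hs.one_sub_mul_tsum_pow, hs.tsum_pow_mul_one_sub⟩
  · simpa [_root_.smul_pow] using hs.hasSum
  · exact (norm_tsum_le_tsum_norm hsn).trans (hsn.tsum_le_tsum hnorm hsum)

/-! ### Spectrum of `A* A` for an invertible `A` -/

theorem spectrum_subset_Icc [Nontrivial H] (A R : H →L[ℂ] H) (K b : ℝ) (hK : 0 < K)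
    (hRA : R * A = 1) (hR : ‖R‖ ≤ K) (hb : ‖A‖ ^ 2 ≤ b) :
    spectrum ℝ (star A * A) ⊆ Set.Icc ((K⁻¹) ^ 2) b := by
  have hsa : IsSelfAdjoint (star A * A) := IsSelfAdjoint.star_mul_self A
  have hlow : ∀ v : H, (K⁻¹) ^ 2 * ‖v‖ ^ 2 ≤ ‖A v‖ ^ 2 := by
    intro v
    have h1 : ‖v‖ ≤ K * ‖A v‖ := by
      have : v = R (A v) := by
        have := congrArg (fun T : H →L[ℂ] H => T v) hRA
        simpa using this.symm
      calc ‖v‖ = ‖R (A v)‖ := by rw [← this]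
        _ ≤ ‖R‖ * ‖A v‖ := R.le_opNorm _
        _ ≤ K * ‖A v‖ := by gcongr
    have h2 : K⁻¹ * ‖v‖ ≤ ‖A v‖ := by rw [inv_mul_le_iff₀ hK]; exact h1
    calc (K⁻¹) ^ 2 * ‖v‖ ^ 2 = (K⁻¹ * ‖v‖) ^ 2 := by ring
      _ ≤ ‖A v‖ ^ 2 := pow_le_pow_left₀ (by positivity) h2 2
  intro x hx
  constructor
  · have hpos : algebraMap ℝ (H →L[ℂ] H) ((K⁻¹) ^ 2) ≤ star A * A := by
      rw [ContinuousLinearMap.le_def, ContinuousLinearMap.isPositive_def']
      refine ⟨hsa.sub (IsSelfAdjoint.algebraMap _ (IsSelfAdjoint.all _)), fun v => ?_⟩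
      rw [ContinuousLinearMap.reApplyInnerSelf_apply]
      have e1 : inner ℂ ((star A * A) v) v = ((‖A v‖ ^ 2 : ℝ) : ℂ) := by
        rw [ContinuousLinearMap.star_eq_adjoint, mul_apply_eq_comp,
          ContinuousLinearMap.adjoint_inner_left, inner_self_eq_norm_sq_to_K]
        push_cast; rfl
      have e2 : inner ℂ ((algebraMap ℝ (H →L[ℂ] H) ((K⁻¹) ^ 2)) v) v
          = (((K⁻¹) ^ 2 * ‖v‖ ^ 2 : ℝ) : ℂ) := by
        rw [Algebra.algebraMap_eq_smul_one, smul_apply,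
          one_apply_eq_self, ← Complex.coe_smul, inner_smul_left,
          inner_self_eq_norm_sq_to_K]
        simp
      rw [sub_apply, inner_sub_left, e1, e2, ← Complex.ofReal_sub]
      simp only [RCLike.re_to_complex, Complex.ofReal_re]
      linarith [hlow v]
    exact (algebraMap_le_iff_le_spectrum hsa).mp hpos x hx
  · have h1 : ‖x‖ ≤ ‖star A * A‖ := spectrum.norm_le_norm_of_mem hx
    rw [CStarRing.norm_star_mul_self] at h1
    have h2 : x ≤ ‖x‖ := by rw [Real.norm_eq_abs]; exact le_abs_self x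
    nlinarith [norm_nonneg A]

/-! ### Derivative of powers in a noncommutative algebra -/

/-- The derivative of `t ↦ Y t ^ n` at a point where `Y` has value `Y` and derivative `Y'`. -/
noncomputable def dpow (Y Y' : H →L[ℂ] H) : ℕ → (H →L[ℂ] H)
  | 0 => 0
  | n + 1 => dpow Y Y' n * Y + Y ^ n * Y'

theorem hasDerivAt_pow_dpow {f : ℝ → H →L[ℂ] H} {f' : H →L[ℂ] H} {t : ℝ}
    (hf : HasDerivAt f f' t) (n : ℕ) :
    HasDerivAt (fun s => f s ^ n) (dpow (f t) f' n) t := by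
  induction n with
  | zero => simpa [dpow] using hasDerivAt_const t (1 : H →L[ℂ] H)
  | succ n ih =>
    have h := ih.fun_mul hf
    have e : (fun s => f s ^ (n + 1)) = fun s => f s ^ n * f s := by
      funext s; rw [pow_succ]
    rw [e]
    exact h

theorem tau_dpow (ξ : H) (𝒜 : StarSubalgebra ℂ (H →L[ℂ] H))
    (htr : ∀ X ∈ 𝒜, ∀ Y ∈ 𝒜, inner ℂ ξ ((X * Y) ξ) = inner ℂ ξ ((Y * X) ξ))
    (Y Y' : H →L[ℂ] H) (hY : Y ∈ 𝒜) (hY' : Y' ∈ 𝒜) (n j : ℕ) :
    tauL ξ (dpow Y Y' (n + 1) * Y ^ j) = ((n : ℂ) + 1) * tauL ξ (Y ^ (n + j) * Y') := by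
  induction n generalizing j with
  | zero =>
    simp only [dpow, zero_mul, zero_add, pow_zero, one_mul, Nat.cast_zero]
    rw [tauL_apply, tauL_apply, htr _ hY' _ (pow_mem hY j)]
  | succ n ih =>
    have e : dpow Y Y' (n + 1 + 1) * Y ^ j
        = dpow Y Y' (n + 1) * Y ^ (j + 1) + Y ^ (n + 1) * Y' * Y ^ j := by
      rw [show dpow Y Y' (n + 1 + 1) = dpow Y Y' (n + 1) * Y + Y ^ (n + 1) * Y' from rfl,
        add_mul, mul_assoc, ← pow_succ']
    have h2 : tauL ξ (Y ^ (n + 1) * Y' * Y ^ j) = tauL ξ (Y ^ (n + 1 + j) * Y') := by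
      rw [tauL_apply, tauL_apply, htr _ (mul_mem (pow_mem hY _) hY') _ (pow_mem hY j),
        ← mul_assoc, ← pow_add, add_comm j]
    rw [e, map_add, ih (j + 1), h2, show n + (j + 1) = n + 1 + j by ring]
    push_cast; ring

/-! ### The key trace computation -/

theorem key_bound (ξ : H) (hξ : ‖ξ‖ = 1) (𝒜 : StarSubalgebra ℂ (H →L[ℂ] H))
    (htr : ∀ X ∈ 𝒜, ∀ Y ∈ 𝒜, inner ℂ ξ ((X * Y) ξ) = inner ℂ ξ ((Y * X) ξ))
    (S A R : H →L[ℂ] H) (hS : S ∈ 𝒜) (hA : A ∈ 𝒜) (hR : R ∈ 𝒜)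
    (hAR : A * R = 1) (hRA : R * A = 1) (hSR : tauL ξ (S * R) = 0)
    (K ρ : ℝ) (hRK : ‖R‖ ≤ K) (hAS : ‖A‖ ≤ 1 + ‖S‖)
    (hYρ : ‖(1 : H →L[ℂ] H) - ((1 + ‖S‖) ^ 2)⁻¹ • (star A * A)‖ ≤ ρ) (m : ℕ) :
    ‖tauL ξ ((∑ n ∈ Finset.range m,
          ((1 : H →L[ℂ] H) - ((1 + ‖S‖) ^ 2)⁻¹ • (star A * A)) ^ n)
        * (((1 + ‖S‖) ^ 2)⁻¹ • (star S * A + star A * S)))‖
      ≤ 2 * (1 + ‖S‖) ^ 2 * K ^ 2 * ρ ^ m := by
  have hnt : Nontrivial H :=
    ⟨⟨ξ, 0, fun h => by rw [h, norm_zero] at hξ; exact zero_ne_one hξ⟩⟩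
  set b : ℝ := (1 + ‖S‖) ^ 2 with hb
  have hb0 : 0 < b := by positivity
  set Y : H →L[ℂ] H := 1 - b⁻¹ • (star A * A) with hY
  set Y' : H →L[ℂ] H := b⁻¹ • (star S * A + star A * S) with hY'
  set Q : H →L[ℂ] H := b • (R * star R) with hQ
  have hsRA : star R * star A = 1 := by rw [← star_mul, hAR, star_one]
  have hsAR : star A * star R = 1 := by rw [← star_mul, hRA, star_one]
  have h1 : (1 - Y) * Q = 1 := by
    rw [hY, hQ, sub_sub_cancel, smul_mul_smul_comm, inv_mul_cancel₀ hb0.ne', one_smul]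
    calc star A * A * (R * star R) = star A * (A * R) * star R := by simp only [mul_assoc]
      _ = 1 := by rw [hAR, mul_one, hsAR]
  have h2 : (∑ n ∈ Finset.range m, Y ^ n) = (1 - Y ^ m) * Q := by
    calc (∑ n ∈ Finset.range m, Y ^ n)
        = (∑ n ∈ Finset.range m, Y ^ n) * ((1 - Y) * Q) := by rw [h1, mul_one]
      _ = (1 - Y ^ m) * Q := by rw [← mul_assoc, geom_sum_mul_neg]
  have h3 : Q * Y' = R * star R * star S * A + R * S := by
    have e1 : R * star R * (star S * A) = R * star R * star S * A := by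
      simp only [mul_assoc]
    have e2 : R * star R * (star A * S) = R * S := by
      calc R * star R * (star A * S) = R * (star R * star A) * S := by simp only [mul_assoc]
        _ = R * S := by rw [hsRA, mul_one]
    rw [hQ, hY', smul_mul_smul_comm, mul_inv_cancel₀ hb0.ne', one_smul, mul_add, e1, e2]
  have hsR : star R ∈ 𝒜 := star_mem hR
  have hsS : star S ∈ 𝒜 := star_mem hS
  have h4 : tauL ξ (R * star R * star S * A) = 0 := by
    rw [tauL_apply, htr _ (mul_mem (mul_mem hR hsR) hsS) _ hA, ← tauL_apply]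
    have : A * (R * star R * star S) = star (S * R) := by
      rw [star_mul]
      calc A * (R * star R * star S) = (A * R) * star R * star S := by simp only [mul_assoc]
        _ = star R * star S := by rw [hAR, one_mul]
    rw [this, tauL_star, hSR, map_zero]
  have h5 : tauL ξ (R * S) = 0 := by
    rw [tauL_apply, htr _ hR _ hS, ← tauL_apply, hSR]
  have h6 : tauL ξ ((∑ n ∈ Finset.range m, Y ^ n) * Y') = - tauL ξ (Y ^ m * Q * Y') := by
    have e : (∑ n ∈ Finset.range m, Y ^ n) * Y' = Q * Y' - Y ^ m * Q * Y' := by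
      rw [h2, sub_mul, one_mul, sub_mul]
    rw [e, map_sub, h3, map_add, h4, h5, add_zero, zero_sub]
  rw [h6, norm_neg]
  have hQn : ‖Q‖ ≤ b * K ^ 2 := by
    rw [hQ, norm_smul, Real.norm_eq_abs, abs_of_pos hb0]
    have : ‖R * star R‖ ≤ K ^ 2 := by
      calc ‖R * star R‖ ≤ ‖R‖ * ‖star R‖ := norm_mul_le _ _
        _ = ‖R‖ ^ 2 := by rw [norm_star]; ring
        _ ≤ K ^ 2 := pow_le_pow_left₀ (norm_nonneg _) hRK 2
    gcongr
  have hY'n : ‖Y'‖ ≤ 2 := by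
    rw [hY', norm_smul, Real.norm_eq_abs, abs_of_pos (inv_pos.mpr hb0)]
    have : ‖star S * A + star A * S‖ ≤ 2 * b := by
      calc ‖star S * A + star A * S‖ ≤ ‖star S * A‖ + ‖star A * S‖ := norm_add_le _ _
        _ ≤ ‖star S‖ * ‖A‖ + ‖star A‖ * ‖S‖ :=
            add_le_add (norm_mul_le _ _) (norm_mul_le _ _)
        _ = 2 * (‖S‖ * ‖A‖) := by rw [norm_star, norm_star]; ring
        _ ≤ 2 * ((1 + ‖S‖) * (1 + ‖S‖)) := by
            gcongr
            linarith [norm_nonneg S]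
        _ = 2 * b := by rw [hb]; ring
    rw [inv_mul_le_iff₀ hb0]
    linarith
  have hρ0 : 0 ≤ ρ := (norm_nonneg _).trans hYρ
  have hK0 : 0 ≤ K := (norm_nonneg _).trans hRK
  calc ‖tauL ξ (Y ^ m * Q * Y')‖ ≤ ‖Y ^ m * Q * Y'‖ := norm_tauL_le ξ hξ _
    _ ≤ ‖Y ^ m‖ * ‖Q‖ * ‖Y'‖ :=
        (norm_mul_le _ _).trans (by gcongr; exact norm_mul_le _ _)
    _ ≤ ρ ^ m * (b * K ^ 2) * 2 := by
        gcongr
        exact (norm_pow_le _ _).trans (pow_le_pow_left₀ (norm_nonneg _) hYρ m)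
    _ = 2 * b * K ^ 2 * ρ ^ m := by ring

/-! ### The one-parameter families -/

/-- `A t = 1 - t S`. -/
noncomputable def Aop (S : H →L[ℂ] H) (t : ℝ) : H →L[ℂ] H := 1 - t • S

/-- `Y t = 1 - (A t)* (A t) / b`. -/
noncomputable def Yop (S : H →L[ℂ] H) (b : ℝ) (t : ℝ) : H →L[ℂ] H :=
  1 - b⁻¹ • (star (Aop S t) * Aop S t)

/-- The derivative of `Y`. -/
noncomputable def Yop' (S : H →L[ℂ] H) (b : ℝ) (t : ℝ) : H →L[ℂ] H :=
  b⁻¹ • (star S * Aop S t + star (Aop S t) * S)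

/-- The `m`-th partial sum of the logarithm series of `(A t)* (A t)`. -/
noncomputable def Gop (S : H →L[ℂ] H) (b : ℝ) (m : ℕ) (t : ℝ) : H →L[ℂ] H :=
  Real.log b • (1 : H →L[ℂ] H)
    - ∑ n ∈ Finset.range m, (((n : ℝ) + 1)⁻¹) • (Yop S b t) ^ (n + 1)

/-- The derivative of `Gop`. -/
noncomputable def Gop' (S : H →L[ℂ] H) (b : ℝ) (m : ℕ) (t : ℝ) : H →L[ℂ] H :=
  - ∑ n ∈ Finset.range m, (((n : ℝ) + 1)⁻¹) • dpow (Yop S b t) (Yop' S b t) (n + 1)

omit [CompleteSpace H] in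
theorem hasDerivAt_Aop (S : H →L[ℂ] H) (t : ℝ) : HasDerivAt (Aop S) (-S) t := by
  have h := ((hasDerivAt_id t).smul_const S).const_sub (1 : H →L[ℂ] H)
  simp only [id, one_smul] at h
  exact h

theorem star_Aop (S : H →L[ℂ] H) (t : ℝ) : star (Aop S t) = 1 - t • star S := by
  simp [Aop, star_sub, star_smul]

theorem hasDerivAt_star_Aop (S : H →L[ℂ] H) (t : ℝ) :
    HasDerivAt (fun s => star (Aop S s)) (-star S) t := by
  have h : (fun s => star (Aop S s)) = fun s : ℝ => (1 : H →L[ℂ] H) - s • star S := by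
    funext s; exact star_Aop S s
  rw [h]
  have h := ((hasDerivAt_id t).smul_const (star S)).const_sub (1 : H →L[ℂ] H)
  simp only [id, one_smul] at h
  exact h

theorem hasDerivAt_Yop (S : H →L[ℂ] H) (b : ℝ) (t : ℝ) :
    HasDerivAt (Yop S b) (Yop' S b t) t := by
  have h1 := (((hasDerivAt_star_Aop S t).fun_mul (hasDerivAt_Aop S t)).fun_const_smul
    b⁻¹).const_sub (1 : H →L[ℂ] H)
  have e : Yop' S b t = -(b⁻¹ • (-star S * Aop S t + star (Aop S t) * -S)) := by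
    rw [Yop', neg_mul, mul_neg, ← neg_add, smul_neg, neg_neg]
  rw [e]
  exact h1

theorem hasDerivAt_Gop (S : H →L[ℂ] H) (b : ℝ) (m : ℕ) (t : ℝ) :
    HasDerivAt (Gop S b m) (Gop' S b m t) t := by
  have h1 : HasDerivAt
      (fun s => ∑ n ∈ Finset.range m, (((n : ℝ) + 1)⁻¹) • (Yop S b s) ^ (n + 1))
      (∑ n ∈ Finset.range m, (((n : ℝ) + 1)⁻¹) • dpow (Yop S b t) (Yop' S b t) (n + 1)) t :=
    HasDerivAt.fun_sum fun n _ =>
      (hasDerivAt_pow_dpow (hasDerivAt_Yop S b t) (n + 1)).fun_const_smul _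
  exact h1.const_sub _

theorem tau_Gop' (ξ : H) (𝒜 : StarSubalgebra ℂ (H →L[ℂ] H))
    (htr : ∀ X ∈ 𝒜, ∀ Y ∈ 𝒜, inner ℂ ξ ((X * Y) ξ) = inner ℂ ξ ((Y * X) ξ))
    (S : H →L[ℂ] H) (hS : S ∈ 𝒜) (b : ℝ) (m : ℕ) (t : ℝ) :
    tauL ξ (Gop' S b m t)
      = - tauL ξ ((∑ n ∈ Finset.range m, Yop S b t ^ n) * Yop' S b t) := by
  have hA : Aop S t ∈ 𝒜 := sub_mem (one_mem _) (real_smul_mem 𝒜 t hS)
  have hY : Yop S b t ∈ 𝒜 :=
    sub_mem (one_mem _) (real_smul_mem 𝒜 _ (mul_mem (star_mem hA) hA))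
  have hY' : Yop' S b t ∈ 𝒜 :=
    real_smul_mem 𝒜 _ (add_mem (mul_mem (star_mem hS) hA) (mul_mem (star_mem hA) hS))
  rw [Gop', map_neg, map_sum, Finset.sum_mul, map_sum]
  congr 1
  refine Finset.sum_congr rfl fun n _ => ?_
  have h := tau_dpow ξ 𝒜 htr (Yop S b t) (Yop' S b t) hY hY' n 0
  rw [pow_zero, mul_one, add_zero] at h
  rw [map_smul, h, Complex.real_smul]
  have hn : ((n : ℂ) + 1) ≠ 0 := Nat.cast_add_one_ne_zero n
  push_cast
  field_simp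

/-! ### The main statement -/

/-- **A2** (the Fuglede–Kadison core): a tracial vector state kills `log |1 - S|²` when `S` has
summable powers and vanishing moments. -/
theorem state_log_eq_zero (ξ : H) (hξ : ‖ξ‖ = 1) (𝒜 : StarSubalgebra ℂ (H →L[ℂ] H))
    (hcl : IsClosed (𝒜 : Set (H →L[ℂ] H)))
    (htr : ∀ X ∈ 𝒜, ∀ Y ∈ 𝒜, inner ℂ ξ ((X * Y) ξ) = inner ℂ ξ ((Y * X) ξ))
    (S : H →L[ℂ] H) (hS : S ∈ 𝒜) (hsum : Summable fun n : ℕ => ‖S ^ n‖)
    (hmom : ∀ n : ℕ, 1 ≤ n → inner ℂ ξ ((S ^ n) ξ) = 0) :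
    inner ℂ ξ (cfc Real.log (star (1 - S) * (1 - S)) ξ) = 0 := by
  have hnt : Nontrivial H :=
    ⟨⟨ξ, 0, fun h => by rw [h, norm_zero] at hξ; exact zero_ne_one hξ⟩⟩
  set K : ℝ := ∑' n, ‖S ^ n‖ with hKdef
  have hK1 : 1 ≤ K := by
    have h := hsum.le_tsum 0 (fun _ _ => norm_nonneg _)
    simpa using h
  have hK0 : 0 < K := lt_of_lt_of_le one_pos hK1
  set b : ℝ := (1 + ‖S‖) ^ 2 with hb
  have hb1 : 1 ≤ b := by rw [hb]; nlinarith [norm_nonneg S]
  have hb0 : 0 < b := lt_of_lt_of_le one_pos hb1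
  set a : ℝ := (K⁻¹) ^ 2 with ha
  have ha0 : 0 < a := by rw [ha]; positivity
  have ha1 : a ≤ 1 := by
    rw [ha]; exact pow_le_one₀ (by positivity) (inv_le_one_of_one_le₀ hK1)
  have hab : a ≤ b := ha1.trans hb1
  have hab0 : 0 < a / b := div_pos ha0 hb0
  set ρ : ℝ := 1 - a / b with hρ
  have hρ0 : 0 ≤ ρ := by rw [hρ, sub_nonneg, div_le_one hb0]; exact hab
  have hρ1 : ρ < 1 := by rw [hρ]; linarith
  -- facts for `t ∈ [0, 1]`
  have hfacts : ∀ t ∈ Set.Icc (0 : ℝ) 1,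
      spectrum ℝ (star (Aop S t) * Aop S t) ⊆ Set.Icc a b ∧
      ∀ m : ℕ, ‖tauL ξ (Gop' S b m t)‖ ≤ 2 * b * K ^ 2 * ρ ^ m := by
    intro t ht
    obtain ⟨R, hRsum, hRK, hAR, hRA⟩ := neumann S hsum t ht
    have hA : Aop S t ∈ 𝒜 := sub_mem (one_mem _) (real_smul_mem 𝒜 t hS)
    have hR : R ∈ 𝒜 :=
      hcl.mem_of_tendsto hRsum.tendsto_sum_nat
        (Eventually.of_forall fun N => sum_mem fun n _ => real_smul_mem 𝒜 _ (pow_mem hS n))
    have hSR : tauL ξ (S * R) = 0 := by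
      have h1 := (tauL ξ).hasSum (hRsum.mul_left S)
      have h2 : (fun n : ℕ => tauL ξ (S * (t ^ n • S ^ n))) = fun _ => 0 := by
        funext n
        rw [mul_smul_comm, map_smul, ← pow_succ', tauL_apply,
          hmom (n + 1) (Nat.le_add_left 1 n), smul_zero]
      rw [h2] at h1
      exact h1.unique hasSum_zero
    have hAn : ‖Aop S t‖ ≤ 1 + ‖S‖ := by
      calc ‖Aop S t‖ ≤ ‖(1 : H →L[ℂ] H)‖ + ‖t • S‖ := norm_sub_le _ _
        _ = 1 + t * ‖S‖ := by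
            rw [norm_one, norm_smul, Real.norm_eq_abs, abs_of_nonneg ht.1]
        _ ≤ 1 + 1 * ‖S‖ := by gcongr; exact ht.2
        _ = 1 + ‖S‖ := by rw [one_mul]
    have hspec : spectrum ℝ (star (Aop S t) * Aop S t) ⊆ Set.Icc a b :=
      spectrum_subset_Icc (Aop S t) R K b hK0 hRA hRK
        (by rw [hb]; exact pow_le_pow_left₀ (norm_nonneg _) hAn 2)
    refine ⟨hspec, fun m => ?_⟩
    have hYρ : ‖(1 : H →L[ℂ] H) - b⁻¹ • (star (Aop S t) * Aop S t)‖ ≤ ρ :=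
      norm_one_sub_smul_le _ (IsSelfAdjoint.star_mul_self _) a b ha0 hab hspec
    rw [tau_Gop' ξ 𝒜 htr S hS b m t, norm_neg]
    exact key_bound ξ hξ 𝒜 htr S (Aop S t) R hS hA hR hAR hRA hSR K ρ hRK hAn hYρ m
  -- the partial sums approximate the logarithm
  have happrox : ∀ t ∈ Set.Icc (0 : ℝ) 1, ∀ m : ℕ,
      ‖tauL ξ (cfc Real.log (star (Aop S t) * Aop S t)) - tauL ξ (Gop S b m t)‖
        ≤ ρ ^ (m + 1) / (a / b) := by
    intro t ht m
    rw [← map_sub]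
    exact (norm_tauL_le ξ hξ _).trans
      (norm_cfc_log_sub_partial_le _ (IsSelfAdjoint.star_mul_self _) a b ha0 hab
        (hfacts t ht).1 m)
  -- mean value inequality
  have hmv : ∀ m : ℕ,
      ‖tauL ξ (Gop S b m 1) - tauL ξ (Gop S b m 0)‖ ≤ 2 * b * K ^ 2 * ρ ^ m := by
    intro m
    have hd : ∀ t : ℝ,
        HasDerivAt (fun s => tauL ξ (Gop S b m s)) (tauL ξ (Gop' S b m t)) t :=
      fun t => (tauL ξ).hasFDerivAt.comp_hasDerivAt t (hasDerivAt_Gop S b m t)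
    exact norm_image_sub_le_of_norm_deriv_le_segment_01'
      (f := fun s => tauL ξ (Gop S b m s)) (f' := fun t => tauL ξ (Gop' S b m t))
      (fun t _ => (hd t).hasDerivWithinAt)
      (fun t ht => (hfacts t ⟨ht.1, ht.2.le⟩).2 m)
  -- the end points
  have h0 : cfc Real.log (star (Aop S 0) * Aop S 0) = 0 := by
    have e : star (Aop S 0) * Aop S 0 = algebraMap ℝ (H →L[ℂ] H) 1 := by
      simp [Aop]
    rw [e, cfc_algebraMap, Real.log_one, map_zero]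
  have h1 : star (Aop S 1) * Aop S 1 = star (1 - S) * (1 - S) := by
    simp [Aop]
  -- conclusion
  have hfinal : ∀ m : ℕ, ‖tauL ξ (cfc Real.log (star (1 - S) * (1 - S)))‖
      ≤ (2 / (a / b) + 2 * b * K ^ 2) * ρ ^ m := by
    intro m
    have e1 := happrox 1 ⟨zero_le_one, le_rfl⟩ m
    have e0 := happrox 0 ⟨le_rfl, zero_le_one⟩ m
    rw [h1] at e1
    rw [h0, map_zero, zero_sub, norm_neg] at e0
    have e2 := hmv m
    have hpow : ρ ^ (m + 1) ≤ ρ ^ m := by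
      rw [pow_succ]; exact mul_le_of_le_one_right (pow_nonneg hρ0 m) hρ1.le
    have e3 : ρ ^ (m + 1) / (a / b) ≤ ρ ^ m / (a / b) := by gcongr
    have tri : ‖tauL ξ (cfc Real.log (star (1 - S) * (1 - S)))‖
        ≤ ‖tauL ξ (cfc Real.log (star (1 - S) * (1 - S))) - tauL ξ (Gop S b m 1)‖
          + ‖tauL ξ (Gop S b m 1) - tauL ξ (Gop S b m 0)‖ + ‖tauL ξ (Gop S b m 0)‖ := by
      calc ‖tauL ξ (cfc Real.log (star (1 - S) * (1 - S)))‖
          = ‖(tauL ξ (cfc Real.log (star (1 - S) * (1 - S))) - tauL ξ (Gop S b m 1))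
            + (tauL ξ (Gop S b m 1) - tauL ξ (Gop S b m 0)) + tauL ξ (Gop S b m 0)‖ := by
            congr 1; ring
        _ ≤ _ := norm_add₃_le
    have e4 : (2 / (a / b) + 2 * b * K ^ 2) * ρ ^ m
        = ρ ^ m / (a / b) + 2 * b * K ^ 2 * ρ ^ m + ρ ^ m / (a / b) := by ring
    rw [e4]
    linarith
  have hlim : Tendsto (fun m : ℕ => (2 / (a / b) + 2 * b * K ^ 2) * ρ ^ m) atTop (𝓝 0) := by
    have h := (tendsto_pow_atTop_nhds_zero_of_lt_one hρ0 hρ1).const_mul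
      (2 / (a / b) + 2 * b * K ^ 2)
    rwa [mul_zero] at h
  have hz : ‖tauL ξ (cfc Real.log (star (1 - S) * (1 - S)))‖ ≤ 0 :=
    ge_of_tendsto' hlim hfinal
  exact norm_le_zero_iff.mp hz

end Crest.Agent.S0151.Helper21
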