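import Mathlib
import Crest.Prelude.Def_ProductShift

/-!
# S0151, package R (helper26): the right multiplication by the weighted shift

`exists_right_mult`: an operator `R` commuting with `T` and `T*` with `R ξ = T ξ`, `R* ξ = T* ξ`.

All operators are written as products of `T` and composition operators `C φ g = g ∘ φ` along
measure-preserving maps `φ(x, k) = (o_{a k} x, b k)`; an operator `L` "has symbol `(F, φ)`" when
`(L g)(p) = F p * g (φ p)` almost everywhere.
-/

set_option autoImplicit false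

open MeasureTheory
open Crest.AnalysisR.ProductShift

namespace Crest.Agent.S0151.Helper26

/-! ### Measure-preserving maps -/

/-- The rotation `y ↦ fract (y + a)` preserves Lebesgue measure on `[0,1)`. -/
theorem mp_rot (a : ℝ) :
    MeasurePreserving (fun y : ℝ => Int.fract (y + a)) unitLebesgue unitLebesgue := by
  have hmeas : Measurable (fun y : ℝ => Int.fract (y + a)) :=
    measurable_fract.comp (measurable_id.add_const a)
  refine ⟨hmeas, ?_⟩
  ext S hS
  rw [Measure.map_apply hmeas hS]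
  show (volume.restrict (Set.Ico (0 : ℝ) 1)) ((fun y : ℝ => Int.fract (y + a)) ⁻¹' S) =
    (volume.restrict (Set.Ico (0 : ℝ) 1)) S
  rw [Measure.restrict_apply (hmeas hS), Measure.restrict_apply hS]
  set b := Int.fract a with hb
  have hb0 : 0 ≤ b := Int.fract_nonneg a
  have hb1 : b < 1 := Int.fract_lt_one a
  have hfr : ∀ y : ℝ, Int.fract (y + a) = Int.fract (y + b) := by
    intro y
    have h1 : y + a = y + b + (⌊a⌋ : ℝ) := by
      have := Int.fract_add_floor a
      rw [hb]; linarith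
    rw [h1, Int.fract_add_intCast]
  have hlow : ∀ y : ℝ, 0 ≤ y + b → y + b < 1 → Int.fract (y + b) = y + b :=
    fun y h0 h1 => Int.fract_eq_self.mpr ⟨h0, h1⟩
  have hhigh : ∀ y : ℝ, 1 ≤ y + b → y + b < 2 → Int.fract (y + b) = y + (b - 1) := by
    intro y h0 h1
    rw [Int.fract_eq_iff]
    exact ⟨by linarith, by linarith, ⟨1, by push_cast; ring⟩⟩
  have hset : (fun y : ℝ => Int.fract (y + a)) ⁻¹' S ∩ Set.Ico 0 1 =
      ((fun y : ℝ => y + b) ⁻¹' (S ∩ Set.Ico b 1)) ∪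
        ((fun y : ℝ => y + (b - 1)) ⁻¹' (S ∩ Set.Ico 0 b)) := by
    ext y
    simp only [Set.mem_inter_iff, Set.mem_preimage, Set.mem_Ico, Set.mem_union]
    rw [hfr]
    constructor
    · rintro ⟨hyS, hy0, hy1⟩
      by_cases h : y + b < 1
      · left
        rw [hlow y (by linarith) h] at hyS
        exact ⟨hyS, by linarith, h⟩
      · right
        rw [hhigh y (by linarith) (by linarith)] at hyS
        exact ⟨hyS, by linarith, by linarith⟩
    · rintro (⟨hyS, h1, h2⟩ | ⟨hyS, h1, h2⟩)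
      · rw [hlow y (by linarith) h2]
        exact ⟨hyS, by linarith, by linarith⟩
      · rw [hhigh y (by linarith) (by linarith)]
        exact ⟨hyS, by linarith, by linarith⟩
  have hdisj : Disjoint ((fun y : ℝ => y + b) ⁻¹' (S ∩ Set.Ico b 1))
      ((fun y : ℝ => y + (b - 1)) ⁻¹' (S ∩ Set.Ico 0 b)) := by
    rw [Set.disjoint_left]
    intro y hy1 hy2
    simp only [Set.mem_inter_iff, Set.mem_preimage, Set.mem_Ico] at hy1 hy2
    linarith [hy1.2.2, hy2.2.1]
  have hm2 : MeasurableSet ((fun y : ℝ => y + (b - 1)) ⁻¹' (S ∩ Set.Ico 0 b)) :=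
    (measurable_id.add_const _) (hS.inter measurableSet_Ico)
  rw [hset, measure_union hdisj hm2, measure_preimage_add_right, measure_preimage_add_right,
    add_comm, ← measure_union _ (hS.inter measurableSet_Ico)]
  · congr 1
    ext y
    simp only [Set.mem_inter_iff, Set.mem_Ico, Set.mem_union]
    constructor
    · rintro (⟨h, h1, h2⟩ | ⟨h, h1, h2⟩)
      · exact ⟨h, h1, by linarith⟩
      · exact ⟨h, by linarith, h2⟩
    · rintro ⟨h, h1, h2⟩
      by_cases hy : y < b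
      · exact Or.inl ⟨h, h1, hy⟩
      · exact Or.inr ⟨h, by linarith, h2⟩
  · rw [Set.disjoint_left]
    intro y hy1 hy2
    simp only [Set.mem_inter_iff, Set.mem_Ico] at hy1 hy2
    linarith [hy1.2.2, hy2.2.1]

/-- The coordinatewise rotation preserves the product measure. -/
theorem mp_orbit (θ : ℕ → ℝ) (k : ℤ) :
    MeasurePreserving (orbitPoint θ k) cubeMeasure cubeMeasure := by
  have hm : ∀ i : ℕ, Measurable (fun y : ℝ => Int.fract (y + (k : ℝ) * θ i)) :=
    fun i => (mp_rot _).measurable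
  have h := Measure.infinitePi_map_pi (μ := fun _ : ℕ => unitLebesgue)
    (f := fun (i : ℕ) (y : ℝ) => Int.fract (y + (k : ℝ) * θ i)) hm
  refine ⟨measurable_pi_lambda _ fun i => (hm i).comp (measurable_pi_apply i), ?_⟩
  show Measure.map (fun (x : ℕ → ℝ) (i : ℕ) => Int.fract (x i + (k : ℝ) * θ i))
    (Measure.infinitePi fun _ : ℕ => unitLebesgue) = Measure.infinitePi fun _ : ℕ => unitLebesgue
  have h2 : (fun i => Measure.map (fun y : ℝ => Int.fract (y + (k : ℝ) * θ i)) unitLebesgue) =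
      fun _ : ℕ => unitLebesgue := by
    funext i
    exact (mp_rot _).map_eq
  rw [h2] at h
  exact h

theorem orbit_orbit (θ : ℕ → ℝ) (a b : ℤ) (x : ℕ → ℝ) :
    orbitPoint θ a (orbitPoint θ b x) = orbitPoint θ (a + b) x := by
  funext i
  show Int.fract (Int.fract (x i + (b : ℝ) * θ i) + (a : ℝ) * θ i) =
    Int.fract (x i + ((a + b : ℤ) : ℝ) * θ i)
  have h : Int.fract (x i + (b : ℝ) * θ i) + (a : ℝ) * θ i =
      x i + ((a + b : ℤ) : ℝ) * θ i - (⌊x i + (b : ℝ) * θ i⌋ : ℝ) := by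
    rw [Int.fract]; push_cast; ring
  rw [h, Int.fract_sub_intCast]

/-- Almost every point of the cube has all coordinates in `[0,1)`, so `o_0` is a.e. the identity. -/
theorem ae_orbit_zero (θ : ℕ → ℝ) : ∀ᵐ x ∂cubeMeasure, orbitPoint θ 0 x = x := by
  have h : ∀ i : ℕ, ∀ᵐ x ∂cubeMeasure, x i ∈ Set.Ico (0 : ℝ) 1 := by
    intro i
    have hmp := measurePreserving_eval_infinitePi (fun _ : ℕ => unitLebesgue) i
    have h1 : ∀ᵐ y ∂unitLebesgue, y ∈ Set.Ico (0 : ℝ) 1 := by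
      show ∀ᵐ y ∂(volume.restrict (Set.Ico (0 : ℝ) 1)), y ∈ Set.Ico (0 : ℝ) 1
      exact ae_restrict_mem measurableSet_Ico
    exact hmp.quasiMeasurePreserving.ae h1
  filter_upwards [ae_all_iff.mpr h] with x hx
  funext i
  show Int.fract (x i + ((0 : ℤ) : ℝ) * θ i) = x i
  rw [Int.cast_zero, zero_mul, add_zero]
  exact Int.fract_eq_self.mpr ⟨(hx i).1, (hx i).2⟩


/-- Fibrewise measure-preserving maps over a bijection of `ℤ` preserve `pairMeasure`. -/
theorem mp_skew (ψ : ℤ → (ℕ → ℝ) → (ℕ → ℝ))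
    (hψ : ∀ k, MeasurePreserving (ψ k) cubeMeasure cubeMeasure) (b : ℤ → ℤ)
    (hb : Function.Bijective b) :
    MeasurePreserving (fun p : (ℕ → ℝ) × ℤ => (ψ p.2 p.1, b p.2)) pairMeasure pairMeasure := by
  have hbm : Measurable b := measurable_of_countable b
  have hbmp : MeasurePreserving b Measure.count Measure.count := by
    refine ⟨hbm, ?_⟩
    ext S hS
    rw [Measure.map_apply hbm hS, Measure.count_apply hS, Measure.count_apply (hbm hS),
      Set.encard_preimage_of_bijective hb]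
  have hg : Measurable (Function.uncurry ψ) :=
    measurable_from_prod_countable_right fun k => (hψ k).measurable
  have h1 := hbmp.skew_product (g := ψ) hg (Filter.Eventually.of_forall fun k => (hψ k).map_eq)
  have hsw1 : MeasurePreserving Prod.swap pairMeasure (Measure.count.prod cubeMeasure) :=
    Measure.measurePreserving_swap
  have hsw2 : MeasurePreserving Prod.swap (Measure.count.prod cubeMeasure) pairMeasure :=
    Measure.measurePreserving_swap
  exact hsw2.comp (h1.comp hsw1)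

theorem ae_pair_orbit_zero (θ : ℕ → ℝ) :
    ∀ᵐ p ∂pairMeasure, orbitPoint θ 0 p.1 = p.1 :=
  (Measure.quasiMeasurePreserving_fst (μ := cubeMeasure) (ν := Measure.count)).ae
    (ae_orbit_zero θ)

/-! ### Weighted composition operators -/

/-- The composition operator `g ↦ g ∘ φ` along a measure-preserving map. -/
noncomputable def C (φ : (ℕ → ℝ) × ℤ → (ℕ → ℝ) × ℤ)
    (hφ : MeasurePreserving φ pairMeasure pairMeasure) : pairSpace →L[ℂ] pairSpace :=
  (Lp.compMeasurePreservingₗᵢ ℂ φ hφ).toContinuousLinearMap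

/-- `L` acts by `(L g)(p) = F p * g (φ p)` almost everywhere. -/
def HasSym (L : pairSpace →L[ℂ] pairSpace) (F : (ℕ → ℝ) × ℤ → ℂ)
    (φ : (ℕ → ℝ) × ℤ → (ℕ → ℝ) × ℤ) : Prop :=
  ∀ g : pairSpace, (L g : (ℕ → ℝ) × ℤ → ℂ) =ᵐ[pairMeasure]
    fun p => F p * (g : (ℕ → ℝ) × ℤ → ℂ) (φ p)

theorem hasSym_C (φ : (ℕ → ℝ) × ℤ → (ℕ → ℝ) × ℤ)
    (hφ : MeasurePreserving φ pairMeasure pairMeasure) : HasSym (C φ hφ) (fun _ => 1) φ := by
  intro g
  have h := Lp.coeFn_compMeasurePreserving g hφ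
  filter_upwards [h] with p hp
  rw [one_mul]
  exact hp

theorem hasSym_one : HasSym (1 : pairSpace →L[ℂ] pairSpace) (fun _ => 1) id := by
  intro g
  exact Filter.Eventually.of_forall fun p => by simp

theorem HasSym.mul {L₁ L₂ : pairSpace →L[ℂ] pairSpace} {F₁ F₂ : (ℕ → ℝ) × ℤ → ℂ}
    {φ₁ φ₂ : (ℕ → ℝ) × ℤ → (ℕ → ℝ) × ℤ} (h₁ : HasSym L₁ F₁ φ₁)
    (hφ₁ : MeasurePreserving φ₁ pairMeasure pairMeasure) (h₂ : HasSym L₂ F₂ φ₂) :
    HasSym (L₁ * L₂) (fun p => F₁ p * F₂ (φ₁ p)) (fun p => φ₂ (φ₁ p)) := by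
  intro g
  have ha := h₁ (L₂ g)
  have hb := hφ₁.quasiMeasurePreserving.ae (h₂ g)
  filter_upwards [ha, hb] with p hp1 hp2
  rw [mul_apply_eq_comp, hp1, hp2, mul_assoc]

theorem HasSym.congr {L : pairSpace →L[ℂ] pairSpace} {F F' : (ℕ → ℝ) × ℤ → ℂ}
    {φ φ' : (ℕ → ℝ) × ℤ → (ℕ → ℝ) × ℤ} (h : HasSym L F φ)
    (hF : ∀ᵐ p ∂pairMeasure, F p = F' p) (hφ : ∀ᵐ p ∂pairMeasure, φ p = φ' p) :
    HasSym L F' φ' := by
  intro g
  filter_upwards [h g, hF, hφ] with p hp h1 h2
  rw [hp, h1, h2]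

theorem HasSym.of_eq {L : pairSpace →L[ℂ] pairSpace} {F F' : (ℕ → ℝ) × ℤ → ℂ}
    {φ φ' : (ℕ → ℝ) × ℤ → (ℕ → ℝ) × ℤ} (h : HasSym L F φ)
    (hF : ∀ p, F p = F' p) (hφ : ∀ p, φ p = φ' p) : HasSym L F' φ' :=
  h.congr (Filter.Eventually.of_forall hF) (Filter.Eventually.of_forall hφ)

theorem HasSym.ext {L₁ L₂ : pairSpace →L[ℂ] pairSpace} {F : (ℕ → ℝ) × ℤ → ℂ}
    {φ : (ℕ → ℝ) × ℤ → (ℕ → ℝ) × ℤ} (h₁ : HasSym L₁ F φ) (h₂ : HasSym L₂ F φ) : L₁ = L₂ := by
  refine ContinuousLinearMap.ext fun g => Lp.ext ?_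
  filter_upwards [h₁ g, h₂ g] with p hp1 hp2
  rw [hp1, hp2]

theorem HasSym.isSelfAdjoint {L : pairSpace →L[ℂ] pairSpace} {F : (ℕ → ℝ) × ℤ → ℂ}
    (h : HasSym L F id) (hF : ∀ p, (starRingEnd ℂ) (F p) = F p) : IsSelfAdjoint L := by
  rw [ContinuousLinearMap.isSelfAdjoint_iff_isSymmetric]
  intro g g'
  show inner ℂ (L g) g' = inner ℂ g (L g')
  rw [MeasureTheory.L2.inner_def, MeasureTheory.L2.inner_def]
  apply integral_congr_ae
  filter_upwards [h g, h g'] with p hp hp'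
  rw [hp, hp']
  simp only [id]
  rw [← smul_eq_mul, ← smul_eq_mul, inner_smul_left, inner_smul_right, hF p]

theorem star_eq_of_isometry {U V : pairSpace →L[ℂ] pairSpace} (hU : ∀ x, ‖U x‖ = ‖x‖)
    (hUV : U * V = 1) : star U = V := by
  have h1 : star U * U = 1 := by
    have := (ContinuousLinearMap.norm_map_iff_adjoint_comp_self U).mp hU
    rw [ContinuousLinearMap.star_eq_adjoint]
    exact this
  calc star U = star U * (U * V) := by rw [hUV, mul_one]
    _ = (star U * U) * V := by rw [mul_assoc]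
    _ = V := by rw [h1, one_mul]

theorem norm_C (φ : (ℕ → ℝ) × ℤ → (ℕ → ℝ) × ℤ)
    (hφ : MeasurePreserving φ pairMeasure pairMeasure) (g : pairSpace) : ‖C φ hφ g‖ = ‖g‖ :=
  (Lp.compMeasurePreservingₗᵢ ℂ φ hφ).norm_map g

/-- If `φ' ∘ φ` is a.e. the identity then `(C φ)* = C φ'`. -/
theorem star_C {φ φ' : (ℕ → ℝ) × ℤ → (ℕ → ℝ) × ℤ}
    (hφ : MeasurePreserving φ pairMeasure pairMeasure)
    (hφ' : MeasurePreserving φ' pairMeasure pairMeasure)
    (hinv : ∀ᵐ p ∂pairMeasure, φ' (φ p) = p) : star (C φ hφ) = C φ' hφ' := by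
  refine star_eq_of_isometry (norm_C φ hφ) ?_
  have h := ((hasSym_C φ hφ).mul hφ (hasSym_C φ' hφ')).congr
    (F' := fun _ => 1) (φ' := id) (Filter.Eventually.of_forall fun p => by simp) hinv
  exact h.ext hasSym_one


/-! ### The concrete operators -/

theorem vacuum_ae : ∀ᵐ q ∂pairMeasure,
    (vacuumVector : (ℕ → ℝ) × ℤ → ℂ) q = if q.2 = 0 then 1 else 0 := by
  have hμ : pairMeasure (Set.univ ×ˢ {(0 : ℤ)}) ≠ ⊤ := by
    show (cubeMeasure.prod Measure.count) (Set.univ ×ˢ {(0 : ℤ)}) ≠ ⊤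
    rw [Measure.prod_prod, measure_univ, Measure.count_singleton, one_mul]
    exact ENNReal.one_ne_top
  have h : (vacuumVector : (ℕ → ℝ) × ℤ → ℂ) =ᵐ[pairMeasure]
      (Set.univ ×ˢ {(0 : ℤ)}).indicator fun _ => (1 : ℂ) :=
    indicatorConstLp_coeFn (p := 2)
      (hs := MeasurableSet.univ.prod (measurableSet_singleton (0 : ℤ))) (hμs := hμ) (c := (1 : ℂ))
  filter_upwards [h] with q hq
  rw [hq, Set.indicator_apply]
  simp

variable (θ c : ℕ → ℝ)

set_option linter.unusedVariables false in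
/-- **R** (the right multiplication by `T`): `(R g)(x, k) = f(o_0 x) · g(o_1 x, k - 1)`. -/
theorem exists_right_mult (hθ : ∀ i, 0 < θ i ∧ θ i < 1) (hc : ∀ i, 0 ≤ c i)
    (T : pairSpace →L[ℂ] pairSpace) (hT : IsWeightedShift θ c T) :
    ∃ R : pairSpace →L[ℂ] pairSpace, R * T = T * R ∧ R * star T = star T * R ∧
      R vacuumVector = T vacuumVector ∧ star R vacuumVector = star T vacuumVector := by
  have hbij_id : Function.Bijective (fun k : ℤ => k) := Function.bijective_id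
  have hbij_sub : Function.Bijective (fun k : ℤ => k - 1) := (Equiv.subRight (1 : ℤ)).bijective
  have hbij_add : Function.Bijective (fun k : ℤ => k + 1) := (Equiv.addRight (1 : ℤ)).bijective
  have hs : MeasurePreserving (fun p : (ℕ → ℝ) × ℤ => (p.1, p.2 - 1)) pairMeasure pairMeasure :=
    mp_skew (fun _ => id) (fun _ => MeasurePreserving.id _) (fun k => k - 1) hbij_sub
  have hs' : MeasurePreserving (fun p : (ℕ → ℝ) × ℤ => (p.1, p.2 + 1)) pairMeasure pairMeasure :=
    mp_skew (fun _ => id) (fun _ => MeasurePreserving.id _) (fun k => k + 1) hbij_add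
  have hκ : MeasurePreserving (fun p : (ℕ → ℝ) × ℤ => (orbitPoint θ (1 - p.2) p.1, p.2))
      pairMeasure pairMeasure :=
    mp_skew (fun k => orbitPoint θ (1 - k)) (fun k => mp_orbit θ (1 - k)) (fun k => k) hbij_id
  have hκ' : MeasurePreserving (fun p : (ℕ → ℝ) × ℤ => (orbitPoint θ (p.2 - 1) p.1, p.2))
      pairMeasure pairMeasure :=
    mp_skew (fun k => orbitPoint θ (k - 1)) (fun k => mp_orbit θ (k - 1)) (fun k => k) hbij_id
  have hl : MeasurePreserving (fun p : (ℕ → ℝ) × ℤ => (orbitPoint θ (p.2 + 1) p.1, p.2))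
      pairMeasure pairMeasure :=
    mp_skew (fun k => orbitPoint θ (k + 1)) (fun k => mp_orbit θ (k + 1)) (fun k => k) hbij_id
  have hl' : MeasurePreserving (fun p : (ℕ → ℝ) × ℤ => (orbitPoint θ (-p.2 - 1) p.1, p.2))
      pairMeasure pairMeasure :=
    mp_skew (fun k => orbitPoint θ (-k - 1)) (fun k => mp_orbit θ (-k - 1)) (fun k => k) hbij_id
  have hτ : MeasurePreserving (fun p : (ℕ → ℝ) × ℤ => (orbitPoint θ 1 p.1, p.2 - 1))
      pairMeasure pairMeasure :=
    mp_skew (fun _ => orbitPoint θ 1) (fun _ => mp_orbit θ 1) (fun k => k - 1) hbij_sub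
  have hρ : MeasurePreserving (fun p : (ℕ → ℝ) × ℤ => (orbitPoint θ (-1) p.1, p.2 + 1))
      pairMeasure pairMeasure :=
    mp_skew (fun _ => orbitPoint θ (-1)) (fun _ => mp_orbit θ (-1)) (fun k => k + 1) hbij_add
  have hTsym : HasSym T (fun p => ((weight θ c (orbitPoint θ (p.2 - 1) p.1) : ℝ) : ℂ))
      (fun p => (p.1, p.2 - 1)) := hT
  -- Step A: the adjoint of `T`
  have hM : HasSym (T * C _ hs') (fun p => ((weight θ c (orbitPoint θ (p.2 - 1) p.1) : ℝ) : ℂ))
      id :=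
    (hTsym.mul hs (hasSym_C _ hs')).of_eq (fun p => by simp) (fun p => by simp)
  have hMsa : IsSelfAdjoint (T * C _ hs') := hM.isSelfAdjoint (fun p => Complex.conj_ofReal _)
  have hCs : star (C _ hs) = C _ hs' :=
    star_C hs hs' (Filter.Eventually.of_forall fun p => by simp)
  have hCC : C _ hs' * C _ hs = 1 :=
    (((hasSym_C _ hs').mul hs' (hasSym_C _ hs)).of_eq (F' := fun _ => 1) (φ' := id)
      (fun p => by simp) (fun p => by simp)).ext hasSym_one
  have hTstar : star T = C _ hs' * (T * C _ hs') := by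
    have h1 : T = (T * C _ hs') * C _ hs := by rw [mul_assoc, hCC, mul_one]
    calc star T = star ((T * C _ hs') * C _ hs) := by rw [← h1]
      _ = star (C _ hs) * star (T * C _ hs') := star_mul _ _
      _ = C _ hs' * (T * C _ hs') := by rw [hCs, hMsa.star_eq]
  have hTs : HasSym (star T) (fun p => ((weight θ c (orbitPoint θ p.2 p.1) : ℝ) : ℂ))
      (fun p => (p.1, p.2 + 1)) := by
    rw [hTstar]
    exact ((hasSym_C _ hs').mul hs' (hTsym.mul hs (hasSym_C _ hs'))).of_eq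
      (fun p => by simp) (fun p => by simp)
  -- Step B: the operator `R`
  have hR : HasSym (C _ hκ * (T * C _ hl)) (fun p => ((weight θ c (orbitPoint θ 0 p.1) : ℝ) : ℂ))
      (fun p => (orbitPoint θ 1 p.1, p.2 - 1)) := by
    refine ((hasSym_C _ hκ).mul hκ (hTsym.mul hs (hasSym_C _ hl))).of_eq (fun p => ?_)
      (fun p => ?_)
    · show (1 : ℂ) * (((weight θ c (orbitPoint θ (p.2 - 1) (orbitPoint θ (1 - p.2) p.1)) : ℝ) : ℂ)
        * 1) = _
      rw [orbit_orbit, show p.2 - 1 + (1 - p.2) = 0 by ring, one_mul, mul_one]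
    · show (orbitPoint θ (p.2 - 1 + 1) (orbitPoint θ (1 - p.2) p.1), p.2 - 1) = _
      rw [orbit_orbit, show p.2 - 1 + 1 + (1 - p.2) = 1 by ring]
  -- Step C: the adjoint of `R`
  have hCκ : star (C _ hκ) = C _ hκ' := by
    refine star_C hκ hκ' ?_
    filter_upwards [ae_pair_orbit_zero θ] with p hp
    show (orbitPoint θ (p.2 - 1) (orbitPoint θ (1 - p.2) p.1), p.2) = p
    rw [orbit_orbit, show p.2 - 1 + (1 - p.2) = 0 by ring, hp]
  have hCl : star (C _ hl) = C _ hl' := by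
    refine star_C hl hl' ?_
    filter_upwards [ae_pair_orbit_zero θ] with p hp
    show (orbitPoint θ (-p.2 - 1) (orbitPoint θ (p.2 + 1) p.1), p.2) = p
    rw [orbit_orbit, show -p.2 - 1 + (p.2 + 1) = 0 by ring, hp]
  have hRs : HasSym (star (C _ hκ * (T * C _ hl)))
      (fun p => ((weight θ c (orbitPoint θ (-1) p.1) : ℝ) : ℂ))
      (fun p => (orbitPoint θ (-1) p.1, p.2 + 1)) := by
    rw [star_mul, star_mul, hCκ, hCl, mul_assoc]
    refine ((hasSym_C _ hl').mul hl' (hTs.mul hs' (hasSym_C _ hκ'))).of_eq (fun p => ?_)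
      (fun p => ?_)
    · show (1 : ℂ) * (((weight θ c (orbitPoint θ p.2 (orbitPoint θ (-p.2 - 1) p.1)) : ℝ) : ℂ)
        * 1) = _
      rw [orbit_orbit, show p.2 + (-p.2 - 1) = -1 by ring, one_mul, mul_one]
    · show (orbitPoint θ (p.2 + 1 - 1) (orbitPoint θ (-p.2 - 1) p.1), p.2 + 1) = _
      rw [orbit_orbit, show p.2 + 1 - 1 + (-p.2 - 1) = -1 by ring]
  -- Step D: the four properties
  refine ⟨C _ hκ * (T * C _ hl), ?_, ?_, ?_, ?_⟩
  · have h1 := (hR.mul hτ hTsym).of_eq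
      (F' := fun p => ((weight θ c (orbitPoint θ 0 p.1) : ℝ) : ℂ) *
        ((weight θ c (orbitPoint θ (p.2 - 1) p.1) : ℝ) : ℂ))
      (φ' := fun p => (orbitPoint θ 1 p.1, p.2 - 1 - 1))
      (fun p => by
        show ((weight θ c (orbitPoint θ 0 p.1) : ℝ) : ℂ) *
          ((weight θ c (orbitPoint θ (p.2 - 1 - 1) (orbitPoint θ 1 p.1)) : ℝ) : ℂ) = _
        rw [orbit_orbit, show p.2 - 1 - 1 + 1 = p.2 - 1 by ring])
      (fun p => rfl)
    have h2 := (hTsym.mul hs hR).of_eq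
      (F' := fun p => ((weight θ c (orbitPoint θ 0 p.1) : ℝ) : ℂ) *
        ((weight θ c (orbitPoint θ (p.2 - 1) p.1) : ℝ) : ℂ))
      (φ' := fun p => (orbitPoint θ 1 p.1, p.2 - 1 - 1))
      (fun p => mul_comm _ _) (fun p => rfl)
    exact h1.ext h2
  · have h1 := (hR.mul hτ hTs).of_eq
      (F' := fun p => ((weight θ c (orbitPoint θ 0 p.1) : ℝ) : ℂ) *
        ((weight θ c (orbitPoint θ p.2 p.1) : ℝ) : ℂ))
      (φ' := fun p => (orbitPoint θ 1 p.1, p.2))
      (fun p => by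
        show ((weight θ c (orbitPoint θ 0 p.1) : ℝ) : ℂ) *
          ((weight θ c (orbitPoint θ (p.2 - 1) (orbitPoint θ 1 p.1)) : ℝ) : ℂ) = _
        rw [orbit_orbit, show p.2 - 1 + 1 = p.2 by ring])
      (fun p => by
        show (orbitPoint θ 1 p.1, p.2 - 1 + 1) = _
        rw [sub_add_cancel])
    have h2 := (hTs.mul hs' hR).of_eq
      (F' := fun p => ((weight θ c (orbitPoint θ 0 p.1) : ℝ) : ℂ) *
        ((weight θ c (orbitPoint θ p.2 p.1) : ℝ) : ℂ))
      (φ' := fun p => (orbitPoint θ 1 p.1, p.2))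
      (fun p => mul_comm _ _)
      (fun p => by
        show (orbitPoint θ 1 p.1, p.2 + 1 - 1) = _
        rw [add_sub_cancel_right])
    exact h1.ext h2
  · refine Lp.ext ?_
    filter_upwards [hR vacuumVector, hTsym vacuumVector, hτ.quasiMeasurePreserving.ae vacuum_ae,
      hs.quasiMeasurePreserving.ae vacuum_ae] with p h1 h2 h3 h4
    rw [h1, h2, h3, h4]
    show ((weight θ c (orbitPoint θ 0 p.1) : ℝ) : ℂ) * (if p.2 - 1 = 0 then 1 else 0) =
      ((weight θ c (orbitPoint θ (p.2 - 1) p.1) : ℝ) : ℂ) * (if p.2 - 1 = 0 then 1 else 0)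
    by_cases hp : p.2 - 1 = 0
    · rw [hp]
    · rw [if_neg hp, mul_zero, mul_zero]
  · refine Lp.ext ?_
    filter_upwards [hRs vacuumVector, hTs vacuumVector, hρ.quasiMeasurePreserving.ae vacuum_ae,
      hs'.quasiMeasurePreserving.ae vacuum_ae] with p h1 h2 h3 h4
    rw [h1, h2, h3, h4]
    show ((weight θ c (orbitPoint θ (-1) p.1) : ℝ) : ℂ) * (if p.2 + 1 = 0 then 1 else 0) =
      ((weight θ c (orbitPoint θ p.2 p.1) : ℝ) : ℂ) * (if p.2 + 1 = 0 then 1 else 0)
    by_cases hp : p.2 + 1 = 0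
    · have hp2 : p.2 = -1 := by omega
      rw [hp2]
    · rw [if_neg hp, mul_zero, mul_zero]

end Crest.Agent.S0151.Helper26
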