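import Mathlib
import Crest.Prelude.Def_ProductShift

/-!
# S0151 — packages B and B2 (helper28)

`vectorDet_of_isUnit` (B) and `log_scale` (B2), with the exact statements of `Helper48Spec`.
The Prelude definition `vectorDet` is opened only by `show`.
-/

set_option autoImplicit false

open Crest.AnalysisR.ProductShift

namespace Crest.Agent.S0151.Helper28

variable {H : Type*} [NormedAddCommGroup H] [InnerProductSpace ℂ H] [CompleteSpace H]

omit [CompleteSpace H] in
/-- Monotonicity of the vector state for the operator order. -/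
theorem re_inner_mono {X Y : H →L[ℂ] H} (h : X ≤ Y) (ξ : H) :
    RCLike.re (inner ℂ ξ (X ξ)) ≤ RCLike.re (inner ℂ ξ (Y ξ)) := by
  have hp : (Y - X).IsPositive := (ContinuousLinearMap.le_def X Y).mp h
  have h0 := hp.re_inner_nonneg_right ξ
  rw [sub_apply, inner_sub_right, map_sub] at h0
  linarith

omit [CompleteSpace H] in
/-- The vector state of a real scalar operator. -/
theorem re_inner_algebraMap (t : ℝ) (ξ : H) :
    RCLike.re (inner ℂ ξ ((algebraMap ℝ (H →L[ℂ] H) t) ξ)) = t * ‖ξ‖ ^ 2 := by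
  rw [Algebra.algebraMap_eq_smul_one, smul_apply, one_apply_eq_self, ← Complex.coe_smul,
    inner_smul_right, inner_self_eq_norm_sq_to_K]
  have h : ((t : ℂ) * ((‖ξ‖ : ℝ) : ℂ) ^ 2) = ((t * ‖ξ‖ ^ 2 : ℝ) : ℂ) := by push_cast; ring
  exact (congrArg Complex.re h).trans (Complex.ofReal_re _)

omit [CompleteSpace H] in
theorem ofReal_smul_one (ε : ℝ) :
    ((ε : ℝ) : ℂ) • (1 : H →L[ℂ] H) = algebraMap ℝ (H →L[ℂ] H) ε := by
  rw [Algebra.algebraMap_eq_smul_one, Complex.coe_smul]

theorem isStrictlyPositive_star_mul_self {A : H →L[ℂ] H} (hA : IsUnit A) :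
    IsStrictlyPositive (star A * A) :=
  CStarAlgebra.isStrictlyPositive_iff_eq_star_mul_self.mpr ⟨A, hA, rfl⟩


/-- **Package B2** (scaling). -/
theorem log_scale (T : H →L[ℂ] H) (z : ℂ) (hz : z ≠ 0) (hU : IsUnit (1 - z⁻¹ • T)) :
    cfc Real.log (star (T - z • (1 : H →L[ℂ] H)) * (T - z • (1 : H →L[ℂ] H))) =
      (2 * Real.log ‖z‖) • (1 : H →L[ℂ] H) +
        cfc Real.log (star (1 - z⁻¹ • T) * (1 - z⁻¹ • T)) := by
  have h1 : T - z • (1 : H →L[ℂ] H) = (-z) • (1 - z⁻¹ • T) := by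
    rw [smul_sub, smul_smul, neg_mul, mul_inv_cancel₀ hz, neg_smul, neg_smul, one_smul]
    abel
  have h2 : star (T - z • (1 : H →L[ℂ] H)) * (T - z • (1 : H →L[ℂ] H))
      = (‖z‖ ^ 2 : ℝ) • (star (1 - z⁻¹ • T) * (1 - z⁻¹ • T)) := by
    rw [h1, star_smul, smul_mul_smul_comm, ← Complex.coe_smul]
    congr 1
    rw [star_neg, neg_mul_neg, Complex.star_def, Complex.conj_mul']
    push_cast
    rfl
  rw [h2]
  have hsp := isStrictlyPositive_star_mul_self hU
  have h3 := CFC.log_smul' (r := ‖z‖ ^ 2) (star (1 - z⁻¹ • T) * (1 - z⁻¹ • T))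
    (by positivity) hsp
  have h4 : cfc Real.log ((‖z‖ ^ 2 : ℝ) • (star (1 - z⁻¹ • T) * (1 - z⁻¹ • T)))
      = algebraMap ℝ (H →L[ℂ] H) (Real.log (‖z‖ ^ 2))
        + cfc Real.log (star (1 - z⁻¹ • T) * (1 - z⁻¹ • T)) := h3
  rw [h4, Real.log_pow, Algebra.algebraMap_eq_smul_one]
  norm_num

/-- **Package B** (the limit `ε → 0⁺` for an invertible operator). -/
theorem vectorDet_of_isUnit (ξ : H) (A : H →L[ℂ] H) (hA : IsUnit A) :
    vectorDet ξ A = Real.exp (RCLike.re (inner ℂ ξ (cfc Real.log (star A * A) ξ)) / 2) := by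
  have hB := isStrictlyPositive_star_mul_self hA
  show (⨅ ε : {r : ℝ // 0 < r}, Real.exp (RCLike.re (inner ℂ ξ
      (cfc Real.log (star A * A + ((ε : ℝ) : ℂ) • (1 : H →L[ℂ] H)) ξ)) / 2)) = _
  simp_rw [ofReal_smul_one]
  generalize star A * A = B at hB ⊢
  have hbdd : BddBelow (Set.range fun ε : {r : ℝ // 0 < r} => Real.exp (RCLike.re (inner ℂ ξ
      (cfc Real.log (B + algebraMap ℝ (H →L[ℂ] H) (ε : ℝ)) ξ)) / 2)) :=
    ⟨0, by rintro _ ⟨ε, rfl⟩; exact (Real.exp_pos _).le⟩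
  have hlow : ∀ ε : ℝ, 0 < ε →
      cfc Real.log B ≤ cfc Real.log (B + algebraMap ℝ (H →L[ℂ] H) ε) := by
    intro ε hε
    exact CFC.log_le_log (le_add_of_nonneg_right (algebraMap_nonneg _ hε.le)) hB
  apply le_antisymm
  · rcases subsingleton_or_nontrivial (H →L[ℂ] H) with hs | hn
    · refine ciInf_le_of_le hbdd ⟨1, one_pos⟩ ?_
      rw [Subsingleton.elim (cfc Real.log (B + algebraMap ℝ (H →L[ℂ] H) 1)) (cfc Real.log B)]
    · obtain ⟨r, hr, hrle⟩ := (CFC.exists_pos_algebraMap_le_iff hB.isSelfAdjoint).mpr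
        (fun x hx => hB.spectrum_pos hx)
      have hup : ∀ ε : ℝ, 0 < ε → cfc Real.log (B + algebraMap ℝ (H →L[ℂ] H) ε)
          ≤ algebraMap ℝ (H →L[ℂ] H) (Real.log (1 + ε / r)) + cfc Real.log B := by
        intro ε hε
        have h1 : B + algebraMap ℝ (H →L[ℂ] H) ε ≤ (1 + ε / r) • B := by
          have h0 : algebraMap ℝ (H →L[ℂ] H) ε = (ε / r) • algebraMap ℝ (H →L[ℂ] H) r := by
            rw [Algebra.algebraMap_eq_smul_one, Algebra.algebraMap_eq_smul_one, smul_smul,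
              div_mul_cancel₀ _ hr.ne']
          rw [h0, add_smul, one_smul]
          have h9 : (ε / r) • algebraMap ℝ (H →L[ℂ] H) r ≤ (ε / r) • B :=
            smul_le_smul_of_nonneg_left hrle (div_nonneg hε.le hr.le)
          exact add_le_add_right h9 B
        have h2 : CFC.log (B + algebraMap ℝ (H →L[ℂ] H) ε) ≤ CFC.log ((1 + ε / r) • B) :=
          CFC.log_le_log h1 (hB.add_nonneg (algebraMap_nonneg _ hε.le))
        rwa [CFC.log_smul' B (by positivity) hB] at h2
      have hbound : ∀ ε : ℝ, 0 < ε →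
          (⨅ ε : {r : ℝ // 0 < r}, Real.exp (RCLike.re (inner ℂ ξ
            (cfc Real.log (B + algebraMap ℝ (H →L[ℂ] H) (ε : ℝ)) ξ)) / 2))
          ≤ Real.exp ((RCLike.re (inner ℂ ξ (cfc Real.log B ξ))
              + Real.log (1 + ε / r) * ‖ξ‖ ^ 2) / 2) := by
        intro ε hε
        refine ciInf_le_of_le hbdd ⟨ε, hε⟩ ?_
        apply Real.exp_le_exp.mpr
        have h5 := re_inner_mono (hup ε hε) ξ
        rw [add_apply, inner_add_right, map_add, re_inner_algebraMap] at h5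
        show _ / 2 ≤ _ / 2
        linarith
      have htend : Filter.Tendsto (fun ε : ℝ => Real.exp ((RCLike.re (inner ℂ ξ (cfc Real.log B ξ))
              + Real.log (1 + ε / r) * ‖ξ‖ ^ 2) / 2)) (nhdsWithin 0 (Set.Ioi 0))
          (nhds (Real.exp (RCLike.re (inner ℂ ξ (cfc Real.log B ξ)) / 2))) := by
        have hc : ContinuousAt (fun ε : ℝ => Real.exp ((RCLike.re (inner ℂ ξ (cfc Real.log B ξ))
              + Real.log (1 + ε / r) * ‖ξ‖ ^ 2) / 2)) 0 := by
          have hl : ContinuousAt (fun ε : ℝ => Real.log (1 + ε / r)) 0 :=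
            ContinuousAt.log (by fun_prop) (by simp)
          fun_prop
        have h6 := hc.tendsto
        simp only [zero_div, add_zero, Real.log_one, zero_mul] at h6
        exact tendsto_nhdsWithin_of_tendsto_nhds h6
      exact ge_of_tendsto htend
        (Filter.eventually_of_mem self_mem_nhdsWithin (fun ε hε => hbound ε hε))
  · have : Nonempty {r : ℝ // 0 < r} := ⟨⟨1, one_pos⟩⟩
    refine le_ciInf (fun ε => Real.exp_le_exp.mpr ?_)
    have h7 := re_inner_mono (hlow ε.1 ε.2) ξ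
    show _ / 2 ≤ _ / 2
    linarith

end Crest.Agent.S0151.Helper28
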