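import Mathlib
import Crest.Prelude.Def_ProductShift

/-!
# S0151 (lone statement, row 113), package Q1: the norm of the powers of the weighted shift

`(T ^ n g)(x, k) = (∏_{j < n} w(o_{k-1-j} x)) · g(x, k - n)` almost everywhere, and the product of
the weights along an orbit segment of length `n` is at most `exp (-∑_{i ∈ I} c_i ⌊n θ_i⌋)`.
-/

set_option autoImplicit false

open MeasureTheory
open Crest.AnalysisR.ProductShift

namespace Crest.Agent.S0151.Helper30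

/-- The shift `(x, k) ↦ (x, k - n)`. -/
def shiftMap (n : ℤ) (p : (ℕ → ℝ) × ℤ) : (ℕ → ℝ) × ℤ := (p.1, p.2 - n)

theorem measurePreserving_shiftMap (n : ℤ) :
    MeasurePreserving (shiftMap n) pairMeasure pairMeasure := by
  have h1 : MeasurePreserving (id : (ℕ → ℝ) → (ℕ → ℝ)) cubeMeasure cubeMeasure :=
    MeasurePreserving.id _
  have h2 : MeasurePreserving (fun k : ℤ => k - n) Measure.count Measure.count :=
    measurePreserving_sub_right Measure.count n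
  exact h1.prod h2

theorem weight_nonneg (θ c : ℕ → ℝ) (x : ℕ → ℝ) : 0 ≤ weight θ c x := by
  unfold weight
  split_ifs
  · exact le_rfl
  · exact (Real.exp_pos _).le

theorem weight_le_exp (θ c : ℕ → ℝ) (hθ : ∀ i, 0 < θ i ∧ θ i < 1) (hc : ∀ i, 0 ≤ c i)
    (y : ℕ → ℝ) (hy : ∀ i, 0 ≤ y i) (I : Finset ℕ) :
    weight θ c y ≤ Real.exp (-∑ i ∈ I, c i * (⌊y i + θ i⌋ : ℝ)) := by
  unfold weight
  split_ifs with h
  · exact (Real.exp_pos _).le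
  · apply Real.exp_le_exp.mpr
    apply neg_le_neg
    have h1 : ∑ i ∈ I, ENNReal.ofReal (c i * (⌊y i + θ i⌋ : ℝ)) ≤ dropCost θ c y :=
      ENNReal.sum_le_tsum I
    have h2 : (∑ i ∈ I, ENNReal.ofReal (c i * (⌊y i + θ i⌋ : ℝ))).toReal
        ≤ (dropCost θ c y).toReal := ENNReal.toReal_mono h h1
    have h3 : (∑ i ∈ I, ENNReal.ofReal (c i * (⌊y i + θ i⌋ : ℝ))).toReal
        = ∑ i ∈ I, c i * (⌊y i + θ i⌋ : ℝ) := by
      rw [ENNReal.toReal_sum (fun i _ => ENNReal.ofReal_ne_top)]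
      apply Finset.sum_congr rfl
      intro i _
      apply ENNReal.toReal_ofReal
      apply mul_nonneg (hc i)
      have : (0 : ℤ) ≤ ⌊y i + θ i⌋ := Int.floor_nonneg.mpr (by linarith [hy i, (hθ i).1])
      exact_mod_cast this
    linarith

/-- Telescoping of the integer drops along an orbit segment. -/
theorem floor_sum_ge (a θ : ℝ) (k : ℤ) (n : ℕ) :
    (⌊(n : ℝ) * θ⌋ : ℤ) ≤
      ∑ j ∈ Finset.range n, ⌊Int.fract (a + ((k - 1 - (j : ℤ) : ℤ) : ℝ) * θ) + θ⌋ := by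
  have key : ∀ j : ℕ, ⌊Int.fract (a + ((k - 1 - (j : ℤ) : ℤ) : ℝ) * θ) + θ⌋
      = ⌊a + ((k - (j : ℤ) : ℤ) : ℝ) * θ⌋ - ⌊a + ((k - ((j + 1 : ℕ) : ℤ) : ℤ) : ℝ) * θ⌋ := by
    intro j
    have e0 : a + ((k - 1 - (j : ℤ) : ℤ) : ℝ) * θ = a + ((k - ((j + 1 : ℕ) : ℤ) : ℤ) : ℝ) * θ := by
      push_cast; ring
    have e1 : Int.fract (a + ((k - 1 - (j : ℤ) : ℤ) : ℝ) * θ) + θ
        = (a + ((k - (j : ℤ) : ℤ) : ℝ) * θ)
          - ((⌊a + ((k - ((j + 1 : ℕ) : ℤ) : ℤ) : ℝ) * θ⌋ : ℤ) : ℝ) := by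
      rw [e0, Int.fract]; push_cast; ring
    rw [e1, Int.floor_sub_intCast]
  rw [Finset.sum_congr rfl (fun j _ => key j)]
  rw [Finset.sum_range_sub' (fun j : ℕ => ⌊a + ((k - (j : ℤ) : ℤ) : ℝ) * θ⌋)]
  have h := Int.le_floor_add (a + ((k - (n : ℤ) : ℤ) : ℝ) * θ) ((n : ℝ) * θ)
  have e2 : a + ((k - (n : ℤ) : ℤ) : ℝ) * θ + (n : ℝ) * θ
      = a + ((k - ((0 : ℕ) : ℤ) : ℤ) : ℝ) * θ := by
    push_cast; ring
  rw [e2] at h
  linarith

theorem prod_weight_le (θ c : ℕ → ℝ) (hθ : ∀ i, 0 < θ i ∧ θ i < 1) (hc : ∀ i, 0 ≤ c i)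
    (I : Finset ℕ) (x : ℕ → ℝ) (k : ℤ) (n : ℕ) :
    ∏ j ∈ Finset.range n, weight θ c (orbitPoint θ (k - 1 - (j : ℤ)) x)
      ≤ Real.exp (-∑ i ∈ I, c i * (⌊(n : ℝ) * θ i⌋ : ℝ)) := by
  have h1 : ∏ j ∈ Finset.range n, weight θ c (orbitPoint θ (k - 1 - (j : ℤ)) x)
      ≤ ∏ j ∈ Finset.range n,
          Real.exp (-∑ i ∈ I, c i * (⌊orbitPoint θ (k - 1 - (j : ℤ)) x i + θ i⌋ : ℝ)) := by
    apply Finset.prod_le_prod
    · intro j _; exact weight_nonneg _ _ _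
    · intro j _
      exact weight_le_exp θ c hθ hc _ (fun i => Int.fract_nonneg _) I
  refine h1.trans ?_
  rw [← Real.exp_sum]
  apply Real.exp_le_exp.mpr
  rw [Finset.sum_neg_distrib]
  apply neg_le_neg
  rw [Finset.sum_comm]
  apply Finset.sum_le_sum
  intro i _
  rw [← Finset.mul_sum]
  apply mul_le_mul_of_nonneg_left _ (hc i)
  have h := floor_sum_ge (x i) (θ i) k n
  have h2 : ((⌊(n : ℝ) * θ i⌋ : ℤ) : ℝ) ≤
      ((∑ j ∈ Finset.range n,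
        ⌊Int.fract (x i + ((k - 1 - (j : ℤ) : ℤ) : ℝ) * θ i) + θ i⌋ : ℤ) : ℝ) := by
    exact_mod_cast h
  rw [Int.cast_sum] at h2
  exact h2

/-- The almost-everywhere formula for the powers of a weighted shift. -/
theorem pow_apply_ae (θ c : ℕ → ℝ) (T : pairSpace →L[ℂ] pairSpace)
    (hT : IsWeightedShift θ c T) (n : ℕ) :
    ∀ g : pairSpace, ((T ^ n) g : (ℕ → ℝ) × ℤ → ℂ) =ᵐ[pairMeasure]
      fun p => ((∏ j ∈ Finset.range n, weight θ c (orbitPoint θ (p.2 - 1 - (j : ℤ)) p.1) : ℝ) : ℂ)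
        * (g : (ℕ → ℝ) × ℤ → ℂ) (p.1, p.2 - (n : ℤ)) := by
  induction n with
  | zero =>
    intro g
    refine Filter.Eventually.of_forall fun p => ?_
    simp
  | succ n ih =>
    intro g
    have h1 := hT ((T ^ n) g)
    have h2 := ih g
    have h3 : (fun p : (ℕ → ℝ) × ℤ => ((T ^ n) g : (ℕ → ℝ) × ℤ → ℂ) (shiftMap 1 p))
        =ᵐ[pairMeasure] fun p : (ℕ → ℝ) × ℤ =>
          ((∏ j ∈ Finset.range n,
              weight θ c (orbitPoint θ ((shiftMap 1 p).2 - 1 - (j : ℤ)) (shiftMap 1 p).1) : ℝ) : ℂ)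
            * (g : (ℕ → ℝ) × ℤ → ℂ) ((shiftMap 1 p).1, (shiftMap 1 p).2 - (n : ℤ)) :=
      (measurePreserving_shiftMap 1).quasiMeasurePreserving.ae_eq_comp h2
    have h4 : (T ^ (n + 1)) g = T ((T ^ n) g) := by
      rw [pow_succ']; rfl
    rw [h4]
    filter_upwards [h1, h3] with p hp1 hp3
    have hp3' : ((T ^ n) g : (ℕ → ℝ) × ℤ → ℂ) (p.1, p.2 - 1) =
        ((∏ j ∈ Finset.range n,
              weight θ c (orbitPoint θ (p.2 - 1 - 1 - (j : ℤ)) p.1) : ℝ) : ℂ)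
            * (g : (ℕ → ℝ) × ℤ → ℂ) (p.1, p.2 - 1 - (n : ℤ)) := hp3
    rw [hp1, hp3', Finset.prod_range_succ']
    have e1 : p.2 - 1 - (n : ℤ) = p.2 - ((n + 1 : ℕ) : ℤ) := by push_cast; ring
    have e2 : ∀ j : ℕ, p.2 - 1 - 1 - (j : ℤ) = p.2 - 1 - ((j + 1 : ℕ) : ℤ) := by
      intro j; push_cast; ring
    rw [e1]
    simp only [e2]
    push_cast
    ring_nf

/-- **Q1** (norm of the powers). -/
theorem norm_pow_le (θ c : ℕ → ℝ) (hθ : ∀ i, 0 < θ i ∧ θ i < 1) (hc : ∀ i, 0 ≤ c i)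
    (T : pairSpace →L[ℂ] pairSpace) (hT : IsWeightedShift θ c T) (I : Finset ℕ) (n : ℕ) :
    ‖T ^ n‖ ≤ Real.exp (-∑ i ∈ I, c i * (⌊(n : ℝ) * θ i⌋ : ℝ)) := by
  apply ContinuousLinearMap.opNorm_le_bound _ (Real.exp_pos _).le
  intro g
  have hmp := measurePreserving_shiftMap (n : ℤ)
  rw [← Lp.norm_compMeasurePreserving g hmp]
  apply Lp.norm_le_mul_norm_of_ae_le_mul
  filter_upwards [pow_apply_ae θ c T hT n g, Lp.coeFn_compMeasurePreserving g hmp] with p hp1 hp2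
  have hp2' : (Lp.compMeasurePreserving (shiftMap (n : ℤ)) hmp g : (ℕ → ℝ) × ℤ → ℂ) p
      = (g : (ℕ → ℝ) × ℤ → ℂ) (p.1, p.2 - (n : ℤ)) := hp2
  rw [hp1, hp2', norm_mul]
  apply mul_le_mul_of_nonneg_right _ (norm_nonneg _)
  rw [Complex.norm_real, Real.norm_eq_abs,
    abs_of_nonneg (Finset.prod_nonneg fun j _ => weight_nonneg _ _ _)]
  exact prod_weight_le θ c hθ hc I p.1 p.2 n

end Crest.Agent.S0151.Helper30
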