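import Mathlib
import Crest.Prelude.Def_ProductShift

/-!
# S0151 — package D (helper43): divergence of `∑ c_i θ_i`

`∫ (-log f) dμ = ⊤` forces `∑ c_i θ_i = ⊤`: pointwise `-log f ≤ dropCost`, the integral of
`dropCost` is the sum of the coordinate integrals (`lintegral_tsum`), and the `i`-th one is the
integral over `[0,1)` of `c_i ⌊y + θ_i⌋ = c_i 1_{[1-θ_i,1)}(y)`, i.e. `c_i θ_i`.
-/

set_option autoImplicit false

open MeasureTheory
open Crest.AnalysisR.ProductShift

namespace Crest.Agent.S0151.Helper43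

variable (θ c : ℕ → ℝ)

/-- Pointwise, `-log (weight)` is at most the drop (with equality when the drop is finite). -/
theorem ofReal_neg_log_weight_le (x : ℕ → ℝ) :
    ENNReal.ofReal (- Real.log (weight θ c x)) ≤ dropCost θ c x := by
  unfold weight
  split_ifs with h
  · simp [h]
  · rw [Real.log_exp, neg_neg, ENNReal.ofReal_toReal h]

theorem measurable_unit_term (i : ℕ) :
    Measurable fun y : ℝ => ENNReal.ofReal (c i * (⌊y + θ i⌋ : ℝ)) := by
  have h1 : Measurable fun y : ℝ => ⌊y + θ i⌋ := (measurable_id.add_const _).floor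
  have h2 : Measurable fun y : ℝ => ((⌊y + θ i⌋ : ℤ) : ℝ) :=
    (measurable_from_top (f := fun n : ℤ => (n : ℝ))).comp h1
  exact ENNReal.measurable_ofReal.comp (h2.const_mul _)

theorem measurable_term (i : ℕ) :
    Measurable fun x : ℕ → ℝ => ENNReal.ofReal (c i * (⌊x i + θ i⌋ : ℝ)) :=
  (measurable_unit_term θ c i).comp (measurable_pi_apply i)

/-- The coordinate integral: `∫_{[0,1)} c ⌊y + θ⌋ dy ≤ c θ`. -/
theorem lintegral_unit_le (i : ℕ) (hθ : 0 < θ i ∧ θ i < 1) (hc : 0 ≤ c i) :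
    ∫⁻ y, ENNReal.ofReal (c i * (⌊y + θ i⌋ : ℝ)) ∂unitLebesgue ≤ ENNReal.ofReal (c i * θ i) := by
  unfold unitLebesgue
  calc ∫⁻ y in Set.Ico (0:ℝ) 1, ENNReal.ofReal (c i * (⌊y + θ i⌋ : ℝ))
      ≤ ∫⁻ y in Set.Ico (0:ℝ) 1,
          (Set.Ico (1 - θ i) 1).indicator (fun _ => ENNReal.ofReal (c i)) y := by
        refine setLIntegral_mono' measurableSet_Ico (fun y hy => ?_)
        by_cases hy2 : 1 - θ i ≤ y
        · have hfl : ⌊y + θ i⌋ = 1 := by
            rw [Int.floor_eq_iff]
            constructor <;> push_cast <;> linarith [hy.1, hy.2, hθ.1, hθ.2]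
          rw [Set.indicator_of_mem (show y ∈ Set.Ico (1 - θ i) 1 from ⟨hy2, hy.2⟩), hfl]
          simp
        · have hfl : ⌊y + θ i⌋ = 0 := by
            rw [Int.floor_eq_iff]
            constructor <;> push_cast <;> linarith [hy.1, hy.2, hθ.1, hθ.2]
          rw [Set.indicator_of_notMem (fun h : y ∈ Set.Ico (1 - θ i) 1 => hy2 h.1), hfl]
          simp
    _ = ENNReal.ofReal (c i) * volume (Set.Ico (1 - θ i) 1 ∩ Set.Ico (0:ℝ) 1) := by
        rw [lintegral_indicator measurableSet_Ico, setLIntegral_const,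
          Measure.restrict_apply measurableSet_Ico]
    _ = ENNReal.ofReal (c i * θ i) := by
        have hset : Set.Ico (1 - θ i) 1 ∩ Set.Ico (0:ℝ) 1 = Set.Ico (1 - θ i) 1 := by
          ext y
          constructor
          · exact fun h => h.1
          · exact fun h => ⟨h, by linarith [h.1, hθ.2], h.2⟩
        rw [hset, Real.volume_Ico, ← ENNReal.ofReal_mul hc]
        congr 1
        ring

/-- **Package D.** -/
theorem tsum_cost_eq_top (hθ : ∀ i, 0 < θ i ∧ θ i < 1) (hc : ∀ i, 0 ≤ c i)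
    (hpos : ∀ᵐ x ∂cubeMeasure, 0 < weight θ c x)
    (hlog : ∫⁻ x, ENNReal.ofReal (- Real.log (weight θ c x)) ∂cubeMeasure = ⊤) :
    ∑' i, ENNReal.ofReal (c i * θ i) = ⊤ := by
  have _h := hpos
  rw [← top_le_iff, ← hlog]
  calc ∫⁻ x, ENNReal.ofReal (- Real.log (weight θ c x)) ∂cubeMeasure
      ≤ ∫⁻ x, dropCost θ c x ∂cubeMeasure := lintegral_mono (ofReal_neg_log_weight_le θ c)
    _ = ∑' i, ∫⁻ x, ENNReal.ofReal (c i * (⌊x i + θ i⌋ : ℝ)) ∂cubeMeasure := by
        unfold dropCost
        exact lintegral_tsum (fun i => (measurable_term θ c i).aemeasurable)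
    _ ≤ ∑' i, ENNReal.ofReal (c i * θ i) := by
        refine ENNReal.tsum_le_tsum (fun i => ?_)
        have hmap : ∫⁻ x, ENNReal.ofReal (c i * (⌊x i + θ i⌋ : ℝ)) ∂cubeMeasure =
            ∫⁻ y, ENNReal.ofReal (c i * (⌊y + θ i⌋ : ℝ)) ∂unitLebesgue := by
          have h := lintegral_map (μ := cubeMeasure) (measurable_unit_term θ c i)
            (measurable_pi_apply i)
          rw [← h]
          unfold cubeMeasure
          rw [Measure.infinitePi_map_eval]
        rw [hmap]
        exact lintegral_unit_le θ c i (hθ i) (hc i)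

end Crest.Agent.S0151.Helper43
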