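import Mathlib
import Crest.Prelude.Def_ProductShift

/-!
# S0151 (lone statement, row 113) — packages M and V (helper54)

* `norm_vacuumVector` (**V**): the vacuum vector has norm one.
* `moments_zero` (**M**): `⟨ξ, Tⁿ ξ⟩ = 0` for `n ≥ 1`, because `Tⁿ` maps functions supported on
  the level `k = 0` to functions supported on the level `k = n`.

Both are the exact statements of `Crest.Agent.S0151.Spec` (origin/helper48 50a35fe).
-/

set_option autoImplicit false

open MeasureTheory
open Crest.AnalysisR.ProductShift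

namespace Crest.Agent.S0151.Helper54

/-- The map `(x, k) ↦ (x, k - 1)` preserves `pairMeasure`. -/
theorem measurePreserving_shift :
    MeasurePreserving (fun p : (ℕ → ℝ) × ℤ => (p.1, p.2 - 1)) pairMeasure pairMeasure := by
  have h1 : MeasurePreserving (fun k : ℤ => k - 1) Measure.count Measure.count :=
    measurePreserving_sub_right Measure.count 1
  exact (MeasurePreserving.id cubeMeasure).prod h1

/-- `g` vanishes almost everywhere off the level `k`. -/
def SuppLevel (k : ℤ) (g : pairSpace) : Prop :=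
  ∀ᵐ p ∂pairMeasure, p.2 ≠ k → (g : (ℕ → ℝ) × ℤ → ℂ) p = 0

theorem suppLevel_vacuum : SuppLevel 0 vacuumVector := by
  unfold SuppLevel vacuumVector
  filter_upwards [indicatorConstLp_coeFn (p := 2) (μ := pairMeasure)
    (hs := (MeasurableSet.univ.prod (measurableSet_singleton (0 : ℤ)))) (c := (1 : ℂ))] with p hp hne
  rw [hp]
  simp [Set.indicator, hne]

theorem suppLevel_apply (θ c : ℕ → ℝ) (T : pairSpace →L[ℂ] pairSpace)
    (hT : IsWeightedShift θ c T) (k : ℤ) (g : pairSpace) (hg : SuppLevel k g) :
    SuppLevel (k + 1) (T g) := by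
  have h1 := hT g
  have h2 := measurePreserving_shift.quasiMeasurePreserving.ae hg
  filter_upwards [h1, h2] with p hp1 hp2 hne
  rw [hp1, hp2 (fun h => hne (by have h' : p.2 - 1 = k := h; omega)), mul_zero]

theorem suppLevel_pow (θ c : ℕ → ℝ) (T : pairSpace →L[ℂ] pairSpace)
    (hT : IsWeightedShift θ c T) (n : ℕ) : SuppLevel (n : ℤ) ((T ^ n) vacuumVector) := by
  induction n with
  | zero => simpa using suppLevel_vacuum
  | succ n ih =>
    have h := suppLevel_apply θ c T hT n _ ih
    rw [pow_succ']
    simpa using h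

section Concrete

variable (θ c : ℕ → ℝ)

/-- **V** -/
theorem norm_vacuumVector : ‖vacuumVector‖ = 1 := by
  unfold vacuumVector
  rw [norm_indicatorConstLp (by norm_num) (by norm_num)]
  simp [pairMeasure, Measure.real, Measure.prod_prod]

/-- **M** (moments): `T ^ n` maps the level `k = 0` to the level `k = n`. -/
theorem moments_zero (T : pairSpace →L[ℂ] pairSpace) (hT : IsWeightedShift θ c T)
    (n : ℕ) (hn : 1 ≤ n) :
    inner ℂ vacuumVector ((T ^ n) vacuumVector) = 0 := by
  rw [MeasureTheory.L2.inner_def]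
  apply integral_eq_zero_of_ae
  filter_upwards [suppLevel_vacuum, suppLevel_pow θ c T hT n] with p h0 hn'
  by_cases hp : p.2 = 0
  · have hne : p.2 ≠ (n : ℤ) := by
      rw [hp]
      intro h
      omega
    show inner ℂ ((vacuumVector : (ℕ → ℝ) × ℤ → ℂ) p)
      (((T ^ n) vacuumVector : pairSpace) p) = (0 : (ℕ → ℝ) × ℤ → ℂ) p
    rw [hn' hne, inner_zero_right]
    rfl
  · show inner ℂ ((vacuumVector : (ℕ → ℝ) × ℤ → ℂ) p)
      (((T ^ n) vacuumVector : pairSpace) p) = (0 : (ℕ → ℝ) × ℤ → ℂ) p
    rw [h0 hp, inner_zero_left]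
    rfl

end Concrete

end Crest.Agent.S0151.Helper54
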