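import Mathlib
import Crest.Prelude.Def_ProductShift

/-!
# S0151 (lone statement, row 113) — package C2 (helper57)

`exists_partition_data`: EXACT statement of the Spec `origin/helper48 50a35fe`
(`Crest/Agent/Lib/S0151/Helper48Spec.lean`), Mathlib + `Crest.Prelude.Def_ProductShift` only.

Construction: `u x = -log f(o_0 x) ≥ 0` (`f = weight θ c`, `o_0 = orbitPoint θ 0`),
`lvl M x = min ⌊u x⌋₊ M`, `E_j = {lvl M = j}` (`j ≤ M`), `P_j` = multiplication by the indicator of
`E_j × ℤ`, `η_j` = indicator of `E_j × {0}`, `a_j = e^{-2j}`, `ε = e^{-2M}`.  On `E_j` one has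
`f(o_0 x) ≤ e^{-u x} ≤ e^{-j}`, hence `‖T η_j‖² ≤ a_j ‖η_j‖²`; and
`∑_j μ(E_j) log(a_j + ε) ≤ 1 - 2 ∫ lvl M dμ → -∞` as `M → ∞` by monotone convergence, since
`∫ ⌊u⌋₊ dμ ≥ ∫ u dμ - 1 = ∞` (`hlog`, and `o_0 x = x` for `μ`-a.e. `x`).
-/

set_option autoImplicit false

open MeasureTheory
open Crest.AnalysisR.ProductShift

namespace Crest.Agent.S0151.Helper57

noncomputable section

section Ind

variable {α : Type*} [MeasurableSpace α] {μ : Measure α}

/-- The function `1_s · g` as an element of `L²`. -/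
def indFun (μ : Measure α) {s : Set α} (hs : MeasurableSet s) (g : Lp ℂ 2 μ) : Lp ℂ 2 μ :=
  ((Lp.memLp g).indicator hs).toLp _

theorem indFun_coeFn {s : Set α} (hs : MeasurableSet s) (g : Lp ℂ 2 μ) :
    (indFun μ hs g : α → ℂ) =ᵐ[μ] s.indicator (g : α → ℂ) :=
  MemLp.coeFn_toLp _

/-- Multiplication by the indicator of a measurable set, as a bounded operator on `L²`. -/
def indCLM (μ : Measure α) {s : Set α} (hs : MeasurableSet s) : Lp ℂ 2 μ →L[ℂ] Lp ℂ 2 μ :=
  LinearMap.mkContinuous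
    { toFun := indFun μ hs
      map_add' := by
        intro f g
        apply Lp.ext
        filter_upwards [indFun_coeFn hs (f + g), Lp.coeFn_add (indFun μ hs f) (indFun μ hs g),
          indFun_coeFn hs f, indFun_coeFn hs g, Lp.coeFn_add f g] with x h1 h2 h3 h4 h5
        rw [h1, h2, Pi.add_apply, h3, h4]
        by_cases hxs : x ∈ s
        · rw [Set.indicator_of_mem hxs, Set.indicator_of_mem hxs, Set.indicator_of_mem hxs, h5,
            Pi.add_apply]
        · rw [Set.indicator_of_notMem hxs, Set.indicator_of_notMem hxs,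
            Set.indicator_of_notMem hxs, add_zero]
      map_smul' := by
        intro a f
        apply Lp.ext
        filter_upwards [indFun_coeFn hs (a • f), Lp.coeFn_smul a (indFun μ hs f),
          indFun_coeFn hs f, Lp.coeFn_smul a f] with x h1 h2 h3 h4
        rw [h1, RingHom.id_apply, h2, Pi.smul_apply, h3]
        by_cases hxs : x ∈ s
        · rw [Set.indicator_of_mem hxs, Set.indicator_of_mem hxs, h4, Pi.smul_apply]
        · rw [Set.indicator_of_notMem hxs, Set.indicator_of_notMem hxs, smul_zero] }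
    1 (by
      intro g
      rw [one_mul]
      apply Lp.norm_le_norm_of_ae_le
      filter_upwards [indFun_coeFn hs g] with x hx
      simp only [LinearMap.coe_mk, AddHom.coe_mk]
      rw [hx]
      exact norm_indicator_le_norm_self _ _)

theorem indCLM_coeFn {s : Set α} (hs : MeasurableSet s) (g : Lp ℂ 2 μ) :
    (indCLM μ hs g : α → ℂ) =ᵐ[μ] s.indicator (g : α → ℂ) :=
  indFun_coeFn hs g

theorem indCLM_isSelfAdjoint {s : Set α} (hs : MeasurableSet s) :
    IsSelfAdjoint (indCLM μ hs) := by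
  rw [ContinuousLinearMap.isSelfAdjoint_iff_isSymmetric]
  intro f g
  simp only [ContinuousLinearMap.coe_coe]
  rw [L2.inner_def, L2.inner_def]
  apply integral_congr_ae
  filter_upwards [indCLM_coeFn hs f, indCLM_coeFn hs g] with x hf hg
  rw [hf, hg]
  by_cases hx : x ∈ s <;> simp [hx]

theorem indCLM_indicatorConstLp_of_subset {s t : Set α} (hs : MeasurableSet s)
    (ht : MeasurableSet t) (hμt : μ t ≠ ⊤) (h : t ⊆ s) (c : ℂ) :
    indCLM μ hs (indicatorConstLp 2 ht hμt c) = indicatorConstLp 2 ht hμt c := by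
  apply Lp.ext
  filter_upwards [indCLM_coeFn hs (indicatorConstLp 2 ht hμt c),
    indicatorConstLp_coeFn (p := 2) (hs := ht) (hμs := hμt) (c := c)] with x h1 h2
  rw [h1]
  by_cases hxs : x ∈ s
  · rw [Set.indicator_of_mem hxs]
  · rw [Set.indicator_of_notMem hxs, h2, Set.indicator_of_notMem (fun hxt => hxs (h hxt))]

theorem indCLM_indicatorConstLp_of_disjoint {s t : Set α} (hs : MeasurableSet s)
    (ht : MeasurableSet t) (hμt : μ t ≠ ⊤) (h : Disjoint s t) (c : ℂ) :
    indCLM μ hs (indicatorConstLp 2 ht hμt c) = 0 := by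
  apply Lp.ext
  filter_upwards [indCLM_coeFn hs (indicatorConstLp 2 ht hμt c),
    indicatorConstLp_coeFn (p := 2) (hs := ht) (hμs := hμt) (c := c),
    Lp.coeFn_zero ℂ 2 μ] with x h1 h2 h3
  rw [h1, h3]
  by_cases hxs : x ∈ s
  · rw [Set.indicator_of_mem hxs, h2,
      Set.indicator_of_notMem (fun hxt => Set.disjoint_left.1 h hxs hxt)]
    rfl
  · rw [Set.indicator_of_notMem hxs]
    rfl

end Ind


section Concrete

variable (θ c : ℕ → ℝ)

theorem measurable_dropCost : Measurable (dropCost θ c) := by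
  unfold dropCost
  refine Measurable.tsum fun i => ?_
  exact ENNReal.measurable_ofReal.comp
    (measurable_const.mul
      (measurable_from_top.comp ((measurable_pi_apply i).add measurable_const).floor))

theorem measurable_weight : Measurable (weight θ c) := by
  unfold weight
  refine Measurable.ite ?_ measurable_const ?_
  · exact (measurable_dropCost θ c) (measurableSet_singleton ⊤)
  · exact Real.measurable_exp.comp (measurable_dropCost θ c).ennreal_toReal.neg

theorem weight_nonneg (x : ℕ → ℝ) : 0 ≤ weight θ c x := by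
  unfold weight
  split_ifs
  · exact le_rfl
  · exact (Real.exp_pos _).le

theorem weight_le_one (x : ℕ → ℝ) : weight θ c x ≤ 1 := by
  unfold weight
  split_ifs
  · exact zero_le_one
  · exact Real.exp_le_one_iff.2 (neg_nonpos.2 ENNReal.toReal_nonneg)

theorem measurable_orbitPoint (k : ℤ) : Measurable (orbitPoint θ k) := by
  unfold orbitPoint
  refine measurable_pi_iff.2 fun i => ?_
  exact measurable_fract.comp ((measurable_pi_apply i).add measurable_const)

/-- `u x = -log f(o_0 x)`. -/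
def uFun (x : ℕ → ℝ) : ℝ := -Real.log (weight θ c (orbitPoint θ 0 x))

theorem measurable_uFun : Measurable (uFun θ c) :=
  (Real.measurable_log.comp ((measurable_weight θ c).comp (measurable_orbitPoint θ 0))).neg

theorem uFun_nonneg (x : ℕ → ℝ) : 0 ≤ uFun θ c x :=
  neg_nonneg.2 (Real.log_nonpos (weight_nonneg θ c _) (weight_le_one θ c _))

theorem weight_le_exp_neg_uFun (x : ℕ → ℝ) :
    weight θ c (orbitPoint θ 0 x) ≤ Real.exp (-uFun θ c x) := by
  unfold uFun
  rw [neg_neg]
  exact Real.le_exp_log _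

/-- the truncated level `min ⌊u x⌋₊ M`. -/
def lvl (M : ℕ) (x : ℕ → ℝ) : ℕ := min ⌊uFun θ c x⌋₊ M

theorem measurable_lvl (M : ℕ) : Measurable (lvl θ c M) :=
  (measurable_uFun θ c).nat_floor.min measurable_const

/-- the level sets. -/
def Eset (M j : ℕ) : Set (ℕ → ℝ) := {x | lvl θ c M x = j}

theorem measurableSet_Eset (M j : ℕ) : MeasurableSet (Eset θ c M j) :=
  (measurable_lvl θ c M) (measurableSet_singleton j)

theorem weight_le_of_mem_Eset {M j : ℕ} {x : ℕ → ℝ} (hx : x ∈ Eset θ c M j) :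
    weight θ c (orbitPoint θ 0 x) ≤ Real.exp (-(j : ℝ)) := by
  refine (weight_le_exp_neg_uFun θ c x).trans (Real.exp_le_exp.2 (neg_le_neg ?_))
  have h1 : j ≤ ⌊uFun θ c x⌋₊ := by
    have : lvl θ c M x = j := hx
    rw [← this]
    exact min_le_left _ _
  exact (Nat.le_floor_iff (uFun_nonneg θ c x)).1 h1

theorem ae_orbitPoint_zero : ∀ᵐ x ∂cubeMeasure, orbitPoint θ 0 x = x := by
  have h : ∀ i : ℕ, ∀ᵐ x ∂cubeMeasure, x i ∈ Set.Ico (0 : ℝ) 1 := by
    intro i
    have hmp := measurePreserving_eval_infinitePi (fun _ : ℕ => unitLebesgue) i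
    have h0 : ∀ᵐ y ∂unitLebesgue, y ∈ Set.Ico (0 : ℝ) 1 := ae_restrict_mem measurableSet_Ico
    exact hmp.quasiMeasurePreserving.ae h0
  filter_upwards [ae_all_iff.2 h] with x hx
  funext i
  simp only [orbitPoint, Int.cast_zero, zero_mul, add_zero]
  exact Int.fract_eq_self.2 (hx i)

theorem pairMeasure_prod_singleton (E : Set (ℕ → ℝ)) (k : ℤ) :
    pairMeasure (E ×ˢ {k}) = cubeMeasure E := by
  rw [pairMeasure, Measure.prod_prod, Measure.count_singleton, mul_one]

theorem pairMeasure_prod_singleton_ne_top (E : Set (ℕ → ℝ)) (k : ℤ) :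
    pairMeasure (E ×ˢ {k}) ≠ ⊤ := by
  rw [pairMeasure_prod_singleton]
  exact measure_ne_top _ _

/-- the indicator of `E × {k}` in `pairSpace`. -/
def indE {E : Set (ℕ → ℝ)} (hE : MeasurableSet E) (k : ℤ) : pairSpace :=
  indicatorConstLp 2 (hE.prod (measurableSet_singleton k))
    (pairMeasure_prod_singleton_ne_top E k) (1 : ℂ)

theorem indE_coeFn {E : Set (ℕ → ℝ)} (hE : MeasurableSet E) (k : ℤ) :
    (indE hE k : (ℕ → ℝ) × ℤ → ℂ) =ᵐ[pairMeasure] (E ×ˢ {k}).indicator fun _ => (1 : ℂ) :=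
  indicatorConstLp_coeFn

theorem norm_indE_sq {E : Set (ℕ → ℝ)} (hE : MeasurableSet E) (k : ℤ) :
    ‖indE hE k‖ ^ 2 = (cubeMeasure E).toReal := by
  unfold indE
  rw [norm_indicatorConstLp (by norm_num) (by norm_num), Measure.real,
    pairMeasure_prod_singleton]
  simp only [norm_one, one_mul, ENNReal.toReal_ofNat]
  rw [← Real.rpow_natCast, ← Real.rpow_mul ENNReal.toReal_nonneg]
  norm_num

theorem measurePreserving_shift :
    MeasurePreserving (fun p : (ℕ → ℝ) × ℤ => (p.1, p.2 - 1)) pairMeasure pairMeasure :=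
  (MeasurePreserving.id cubeMeasure).prod (measurePreserving_sub_right Measure.count (1 : ℤ))


variable {θ c}

theorem indCLM_comm_of_isWeightedShift {T : pairSpace →L[ℂ] pairSpace}
    (hT : IsWeightedShift θ c T) {E : Set (ℕ → ℝ)} (hE : MeasurableSet E) :
    indCLM pairMeasure (hE.prod (MeasurableSet.univ : MeasurableSet (Set.univ : Set ℤ))) * T =
      T * indCLM pairMeasure (hE.prod (MeasurableSet.univ : MeasurableSet (Set.univ : Set ℤ))) := by
  ext1 g
  change indCLM pairMeasure (hE.prod (MeasurableSet.univ : MeasurableSet (Set.univ : Set ℤ))) (T g)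
    = T (indCLM pairMeasure (hE.prod (MeasurableSet.univ : MeasurableSet (Set.univ : Set ℤ))) g)
  apply Lp.ext
  have h3 := (measurePreserving_shift).quasiMeasurePreserving.ae
    (indCLM_coeFn (μ := pairMeasure) (hE.prod (MeasurableSet.univ : MeasurableSet (Set.univ : Set ℤ))) g)
  filter_upwards [indCLM_coeFn (μ := pairMeasure)
      (hE.prod (MeasurableSet.univ : MeasurableSet (Set.univ : Set ℤ))) (T g), hT g,
    hT (indCLM pairMeasure (hE.prod (MeasurableSet.univ : MeasurableSet (Set.univ : Set ℤ))) g),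
    h3] with p h1 h2 h4 h5
  rw [h1, h4]
  by_cases hp : p.1 ∈ E
  · have hp1 : p ∈ E ×ˢ (Set.univ : Set ℤ) := ⟨hp, trivial⟩
    have hp2 : (p.1, p.2 - 1) ∈ E ×ˢ (Set.univ : Set ℤ) := ⟨hp, trivial⟩
    rw [Set.indicator_of_mem hp1, h2]
    have h5' : (indCLM pairMeasure
        (hE.prod (MeasurableSet.univ : MeasurableSet (Set.univ : Set ℤ))) g : _ → ℂ)
          (p.1, p.2 - 1) = (g : _ → ℂ) (p.1, p.2 - 1) := by
      rw [h5, Set.indicator_of_mem hp2]
    rw [h5']
  · have hp1 : p ∉ E ×ˢ (Set.univ : Set ℤ) := fun h => hp h.1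
    have hp2 : (p.1, p.2 - 1) ∉ E ×ˢ (Set.univ : Set ℤ) := fun h => hp h.1
    rw [Set.indicator_of_notMem hp1]
    have h5' : (indCLM pairMeasure
        (hE.prod (MeasurableSet.univ : MeasurableSet (Set.univ : Set ℤ))) g : _ → ℂ)
          (p.1, p.2 - 1) = 0 := by
      rw [h5, Set.indicator_of_notMem hp2]
    rw [h5', mul_zero]

theorem norm_apply_indE_le {T : pairSpace →L[ℂ] pairSpace} (hT : IsWeightedShift θ c T)
    {E : Set (ℕ → ℝ)} (hE : MeasurableSet E) {b : ℝ} (hb : 0 ≤ b)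
    (hEb : ∀ x ∈ E, weight θ c (orbitPoint θ 0 x) ≤ b) :
    ‖T (indE hE 0)‖ ^ 2 ≤ b ^ 2 * ‖indE hE 0‖ ^ 2 := by
  have key : ‖T (indE hE 0)‖ ≤ b * ‖indE hE 1‖ := by
    apply Lp.norm_le_mul_norm_of_ae_le_mul
    have h2 := measurePreserving_shift.quasiMeasurePreserving.ae (indE_coeFn hE 0)
    filter_upwards [hT (indE hE 0), h2, indE_coeFn hE 1] with p h1 h2 h3
    rw [h1, h3]
    have h2' : (indE hE 0 : _ → ℂ) (p.1, p.2 - 1) =
        (E ×ˢ ({0} : Set ℤ)).indicator (fun _ => (1 : ℂ)) (p.1, p.2 - 1) := h2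
    rw [h2']
    by_cases hp : p.1 ∈ E ∧ p.2 = 1
    · have hp1 : p ∈ E ×ˢ ({1} : Set ℤ) := ⟨hp.1, hp.2⟩
      have hp2 : (p.1, p.2 - 1) ∈ E ×ˢ ({0} : Set ℤ) := ⟨hp.1, by simp [hp.2]⟩
      rw [Set.indicator_of_mem hp1, Set.indicator_of_mem hp2, mul_one, norm_one, mul_one, hp.2,
        sub_self, Complex.norm_real, Real.norm_of_nonneg (weight_nonneg θ c _)]
      exact hEb _ hp.1
    · have hp2 : (p.1, p.2 - 1) ∉ E ×ˢ ({0} : Set ℤ) := by
        intro h
        apply hp
        refine ⟨h.1, ?_⟩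
        have h0 : p.2 - 1 = 0 := h.2
        omega
      rw [Set.indicator_of_notMem hp2, mul_zero, norm_zero]
      exact mul_nonneg hb (norm_nonneg _)
  have hn : ‖indE hE 1‖ ^ 2 = ‖indE hE 0‖ ^ 2 := by rw [norm_indE_sq, norm_indE_sq]
  calc ‖T (indE hE 0)‖ ^ 2 ≤ (b * ‖indE hE 1‖) ^ 2 := pow_le_pow_left₀ (norm_nonneg _) key 2
    _ = b ^ 2 * ‖indE hE 0‖ ^ 2 := by rw [mul_pow, hn]

variable (θ c)

theorem sum_indE_eq_vacuum (M : ℕ) :
    ∑ j : Fin (M + 1), indE (measurableSet_Eset θ c M j) 0 = vacuumVector := by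
  apply Lp.ext
  have h2 : ∀ᵐ p ∂pairMeasure, ∀ j : Fin (M + 1),
      (indE (measurableSet_Eset θ c M j) 0 : _ → ℂ) p =
        (Eset θ c M j ×ˢ ({0} : Set ℤ)).indicator (fun _ => (1 : ℂ)) p :=
    ae_all_iff.2 fun j => indE_coeFn _ 0
  have h3 : (vacuumVector : _ → ℂ) =ᵐ[pairMeasure]
      (Set.univ ×ˢ ({0} : Set ℤ)).indicator (fun _ => (1 : ℂ)) := indicatorConstLp_coeFn
  filter_upwards [Lp.coeFn_fun_finsetSum Finset.univ
    (fun j : Fin (M + 1) => indE (measurableSet_Eset θ c M j) 0), h2, h3] with p h1 h2 h3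
  rw [h1, h3]
  simp_rw [h2]
  by_cases hp : p.2 = 0
  · rw [Set.indicator_of_mem (show p ∈ Set.univ ×ˢ ({0} : Set ℤ) from ⟨trivial, hp⟩)]
    rw [Finset.sum_eq_single (⟨lvl θ c M p.1, Nat.lt_succ_of_le (min_le_right _ _)⟩ : Fin (M + 1))]
    · exact Set.indicator_of_mem (show p ∈ Eset θ c M _ ×ˢ ({0} : Set ℤ) from ⟨rfl, hp⟩) _
    · intro j _ hj
      apply Set.indicator_of_notMem
      intro h
      apply hj
      ext
      exact h.1.symm
    · intro h
      exact absurd (Finset.mem_univ _) h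
  · rw [Set.indicator_of_notMem (fun h => hp h.2)]
    exact Finset.sum_eq_zero fun j _ => Set.indicator_of_notMem (fun h => hp h.2) _

theorem lintegral_comp_lvl (M : ℕ) (F : ℕ → ENNReal) :
    ∫⁻ x, F (lvl θ c M x) ∂cubeMeasure =
      ∑ j : Fin (M + 1), F j * cubeMeasure (Eset θ c M j) := by
  have h : ∀ x, F (lvl θ c M x) =
      ∑ j : Fin (M + 1), F j * (Eset θ c M j).indicator (1 : (ℕ → ℝ) → ENNReal) x := by
    intro x
    rw [Finset.sum_eq_single (⟨lvl θ c M x, Nat.lt_succ_of_le (min_le_right _ _)⟩ : Fin (M + 1))]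
    · rw [Set.indicator_of_mem (show x ∈ Eset θ c M _ from rfl), Pi.one_apply, mul_one]
    · intro j _ hj
      rw [Set.indicator_of_notMem, mul_zero]
      intro h
      apply hj
      ext
      exact h.symm
    · intro h
      exact absurd (Finset.mem_univ _) h
  simp_rw [h]
  rw [lintegral_finsetSum (f := fun (j : Fin (M + 1)) x =>
      F j * (Eset θ c M j).indicator (1 : (ℕ → ℝ) → ENNReal) x) Finset.univ
    (fun j _ => measurable_const.mul (measurable_one.indicator (measurableSet_Eset θ c M j)))]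
  refine Finset.sum_congr rfl fun j _ => ?_
  rw [lintegral_const_mul _ (measurable_one.indicator (measurableSet_Eset θ c M j)),
    lintegral_indicator_one (measurableSet_Eset θ c M j)]

theorem exists_level
    (hlog : ∫⁻ x, ENNReal.ofReal (- Real.log (weight θ c x)) ∂cubeMeasure = ⊤) (B : ℝ) :
    ∃ M : ℕ, ENNReal.ofReal B < ∫⁻ x, (lvl θ c M x : ENNReal) ∂cubeMeasure := by
  have hu : ∫⁻ x, ENNReal.ofReal (uFun θ c x) ∂cubeMeasure = ⊤ := by
    rw [← hlog]
    apply lintegral_congr_ae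
    filter_upwards [ae_orbitPoint_zero θ] with x hx
    rw [uFun, hx]
  have h1 : ∫⁻ x, ENNReal.ofReal (uFun θ c x) ∂cubeMeasure ≤
      ∫⁻ x, ((⌊uFun θ c x⌋₊ : ENNReal) + 1) ∂cubeMeasure := by
    refine lintegral_mono fun x => ?_
    calc ENNReal.ofReal (uFun θ c x) ≤ ENNReal.ofReal ((⌊uFun θ c x⌋₊ : ℝ) + 1) :=
          ENNReal.ofReal_le_ofReal (Nat.lt_floor_add_one _).le
      _ = (⌊uFun θ c x⌋₊ : ENNReal) + 1 := by
          rw [ENNReal.ofReal_add (Nat.cast_nonneg _) zero_le_one, ENNReal.ofReal_natCast,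
            ENNReal.ofReal_one]
  rw [hu, lintegral_add_right _ measurable_const, lintegral_one, measure_univ] at h1
  have hfl : ∫⁻ x, (⌊uFun θ c x⌋₊ : ENNReal) ∂cubeMeasure = ⊤ := by
    by_contra h
    exact (ENNReal.add_lt_top.2 ⟨lt_top_iff_ne_top.2 h, ENNReal.one_lt_top⟩).ne (top_le_iff.1 h1)
  have hsup : ∀ x, (⌊uFun θ c x⌋₊ : ENNReal) = ⨆ M : ℕ, (lvl θ c M x : ENNReal) := by
    intro x
    refine le_antisymm (le_iSup_of_le ⌊uFun θ c x⌋₊ ?_) (iSup_le fun M => ?_)
    · simp [lvl]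
    · exact Nat.cast_le.2 (min_le_left _ _)
  simp_rw [hsup] at hfl
  rw [lintegral_iSup (f := fun M x => (lvl θ c M x : ENNReal))
    (fun M => measurable_from_top.comp (measurable_lvl θ c M))
    (fun M N hMN x => Nat.cast_le.2 (min_le_min le_rfl hMN))] at hfl
  have : ENNReal.ofReal B < ⨆ M, ∫⁻ x, (lvl θ c M x : ENNReal) ∂cubeMeasure := by
    rw [hfl]
    exact ENNReal.ofReal_lt_top
  exact lt_iSup_iff.1 this

/-- **C2** (`z = 0`, concrete part): partition data with arbitrarily negative bound. -/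
theorem exists_partition_data (hθ : ∀ i, 0 < θ i ∧ θ i < 1) (hc : ∀ i, 0 ≤ c i)
    (hlog : ∫⁻ x, ENNReal.ofReal (- Real.log (weight θ c x)) ∂cubeMeasure = ⊤)
    (T : pairSpace →L[ℂ] pairSpace) (hT : IsWeightedShift θ c T) (K : ℝ) :
    ∃ (m : ℕ) (P : Fin m → pairSpace →L[ℂ] pairSpace) (η : Fin m → pairSpace)
      (a : Fin m → ℝ) (ε : ℝ),
      0 < ε ∧ (∀ j, IsSelfAdjoint (P j)) ∧ (∀ j, P j * T = T * P j) ∧
      (∀ j, P j (η j) = η j) ∧ (∀ i j, i ≠ j → P i (η j) = 0) ∧ (∀ j, 0 ≤ a j) ∧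
      (∀ j, ‖T (η j)‖ ^ 2 ≤ a j * ‖η j‖ ^ 2) ∧ ∑ j, η j = vacuumVector ∧
      ∑ j, ‖η j‖ ^ 2 * Real.log (a j + ε) ≤ -K := by
  obtain ⟨M, hM⟩ := exists_level θ c hlog ((K + 1) / 2)
  refine ⟨M + 1,
    fun j => indCLM pairMeasure ((measurableSet_Eset θ c M j).prod
      (MeasurableSet.univ : MeasurableSet (Set.univ : Set ℤ))),
    fun j => indE (measurableSet_Eset θ c M j) 0,
    fun j => Real.exp (-((j : ℕ) : ℝ)) ^ 2, Real.exp (-(2 * (M : ℝ))), Real.exp_pos _,
    fun j => indCLM_isSelfAdjoint _,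
    fun j => indCLM_comm_of_isWeightedShift hT (measurableSet_Eset θ c M j), ?_, ?_,
    fun j => sq_nonneg _, ?_, sum_indE_eq_vacuum θ c M, ?_⟩
  · intro j
    exact indCLM_indicatorConstLp_of_subset
      ((measurableSet_Eset θ c M j).prod (MeasurableSet.univ : MeasurableSet (Set.univ : Set ℤ)))
      ((measurableSet_Eset θ c M j).prod (measurableSet_singleton (0 : ℤ)))
      (pairMeasure_prod_singleton_ne_top _ 0) (Set.prod_mono le_rfl (Set.subset_univ _)) 1
  · intro i j hij
    apply indCLM_indicatorConstLp_of_disjoint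
    rw [Set.disjoint_left]
    rintro p ⟨h1, -⟩ ⟨h2, -⟩
    have h1' : lvl θ c M p.1 = i := h1
    have h2' : lvl θ c M p.1 = j := h2
    exact hij (Fin.ext (h1'.symm.trans h2'))
  · intro j
    exact norm_apply_indE_le hT (measurableSet_Eset θ c M j) (Real.exp_pos _).le
      (fun x hx => weight_le_of_mem_Eset θ c hx)
  · have hsum1 : ∑ j : Fin (M + 1), (cubeMeasure (Eset θ c M j)).toReal = 1 := by
      have h := lintegral_comp_lvl θ c M (fun _ => 1)
      simp only [one_mul, lintegral_one, measure_univ] at h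
      rw [← ENNReal.toReal_sum (fun j _ => measure_ne_top _ _), ← h, ENNReal.toReal_one]
    have hsum2 : (K + 1) / 2 ≤
        ∑ j : Fin (M + 1), ((j : ℕ) : ℝ) * (cubeMeasure (Eset θ c M j)).toReal := by
      have h := lintegral_comp_lvl θ c M (fun n => (n : ENNReal))
      have hfin : ∀ j : Fin (M + 1),
          ((j : ℕ) : ENNReal) * cubeMeasure (Eset θ c M j) ≠ ⊤ :=
        fun j => ENNReal.mul_ne_top (ENNReal.natCast_ne_top _) (measure_ne_top _ _)
      rw [h] at hM
      have h' := (ENNReal.ofReal_le_iff_le_toReal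
        (ENNReal.sum_ne_top.2 fun j _ => hfin j)).1 hM.le
      rw [ENNReal.toReal_sum (fun j _ => hfin j)] at h'
      simpa [ENNReal.toReal_mul] using h'
    calc ∑ j : Fin (M + 1), ‖indE (measurableSet_Eset θ c M j) 0‖ ^ 2 *
          Real.log (Real.exp (-((j : ℕ) : ℝ)) ^ 2 + Real.exp (-(2 * (M : ℝ))))
        ≤ ∑ j : Fin (M + 1), (cubeMeasure (Eset θ c M j)).toReal * (1 - 2 * ((j : ℕ) : ℝ)) := by
          refine Finset.sum_le_sum fun j _ => ?_
          rw [norm_indE_sq]
          refine mul_le_mul_of_nonneg_left ?_ ENNReal.toReal_nonneg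
          rw [Real.log_le_iff_le_exp (by positivity)]
          have hj : (j : ℕ) ≤ M := Nat.lt_succ_iff.1 j.2
          have e1 : Real.exp (-((j : ℕ) : ℝ)) ^ 2 = Real.exp (-(2 * ((j : ℕ) : ℝ))) := by
            rw [← Real.exp_nat_mul]
            congr 1
            push_cast
            ring
          have e2 : Real.exp (-(2 * (M : ℝ))) ≤ Real.exp (-(2 * ((j : ℕ) : ℝ))) := by
            apply Real.exp_le_exp.2
            have : ((j : ℕ) : ℝ) ≤ M := Nat.cast_le.2 hj
            linarith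
          have e3 : Real.exp (1 - 2 * ((j : ℕ) : ℝ)) =
              Real.exp 1 * Real.exp (-(2 * ((j : ℕ) : ℝ))) := by
            rw [← Real.exp_add]
            exact congrArg Real.exp (by ring)
          have e4 : (2 : ℝ) ≤ Real.exp 1 := by
            have := Real.add_one_le_exp (1 : ℝ)
            linarith
          rw [e1, e3]
          nlinarith [Real.exp_pos (-(2 * ((j : ℕ) : ℝ)))]
      _ = ∑ j : Fin (M + 1), (cubeMeasure (Eset θ c M j)).toReal -
            2 * ∑ j : Fin (M + 1), ((j : ℕ) : ℝ) * (cubeMeasure (Eset θ c M j)).toReal := by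
          rw [Finset.mul_sum, ← Finset.sum_sub_distrib]
          exact Finset.sum_congr rfl fun j _ => by ring
      _ ≤ -K := by
          rw [hsum1]
          linarith

end Concrete

end

end Crest.Agent.S0151.Helper57
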