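import Mathlib

/-!
# S0151 swarm, package A1 (helper81): traciality from a right-multiplication witness

`M := {X | X R = R X ∧ X R* = R* X}` (the commutant of `{R, R*}`),
`𝒜 := {Y ∈ M | ∀ X ∈ M, φ(XY) = φ(YX)}` with `φ X = ⟨ξ, X ξ⟩` is a closed unital
`*`-subalgebra; `S ∈ 𝒜` because
`φ(XS) = ⟨ξ, X R ξ⟩ = ⟨ξ, R X ξ⟩ = ⟨R* ξ, X ξ⟩ = ⟨S* ξ, X ξ⟩ = φ(SX)`.
-/

set_option autoImplicit false

namespace Crest.Agent.S0151.Helper81

variable {H : Type*} [NormedAddCommGroup H] [InnerProductSpace ℂ H] [CompleteSpace H]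

/-- The commutant of `{R, R*}`. -/
def comm (R : H →L[ℂ] H) : Set (H →L[ℂ] H) :=
  {X | X * R = R * X ∧ X * star R = star R * X}

lemma comm_mul {R X Y : H →L[ℂ] H} (hX : X ∈ comm R) (hY : Y ∈ comm R) : X * Y ∈ comm R := by
  obtain ⟨hX1, hX2⟩ := hX
  obtain ⟨hY1, hY2⟩ := hY
  refine ⟨?_, ?_⟩
  · rw [mul_assoc, hY1, ← mul_assoc, hX1, mul_assoc]
  · rw [mul_assoc, hY2, ← mul_assoc, hX2, mul_assoc]

lemma comm_star {R X : H →L[ℂ] H} (hX : X ∈ comm R) : star X ∈ comm R := by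
  obtain ⟨hX1, hX2⟩ := hX
  refine ⟨?_, ?_⟩
  · have := congrArg star hX2
    simpa [star_mul] using this.symm
  · have := congrArg star hX1
    simpa [star_mul] using this.symm

lemma comm_add {R X Y : H →L[ℂ] H} (hX : X ∈ comm R) (hY : Y ∈ comm R) : X + Y ∈ comm R := by
  obtain ⟨hX1, hX2⟩ := hX
  obtain ⟨hY1, hY2⟩ := hY
  exact ⟨by rw [add_mul, mul_add, hX1, hY1], by rw [add_mul, mul_add, hX2, hY2]⟩

lemma comm_algebraMap (R : H →L[ℂ] H) (r : ℂ) : algebraMap ℂ (H →L[ℂ] H) r ∈ comm R :=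
  ⟨(Algebra.commutes r R), (Algebra.commutes r (star R))⟩

lemma isClosed_comm (R : H →L[ℂ] H) : IsClosed (comm R) := by
  have e : comm R = {X | X * R = R * X} ∩ {X | X * star R = star R * X} := rfl
  rw [e]
  exact (isClosed_eq (by fun_prop) (by fun_prop)).inter (isClosed_eq (by fun_prop) (by fun_prop))

/-- `φ(Z*) = conj φ(Z)`. -/
lemma inner_star_apply (ξ : H) (Z : H →L[ℂ] H) :
    inner ℂ ξ ((star Z) ξ) = (starRingEnd ℂ) (inner ℂ ξ (Z ξ)) := by
  rw [ContinuousLinearMap.star_eq_adjoint, ContinuousLinearMap.adjoint_inner_right,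
    inner_conj_symm]

theorem exists_tracial_algebra (ξ : H) (S R : H →L[ℂ] H)
    (h1 : R * S = S * R) (h2 : star R * S = S * star R)
    (h3 : R ξ = S ξ) (h4 : star R ξ = star S ξ) :
    ∃ 𝒜 : StarSubalgebra ℂ (H →L[ℂ] H), IsClosed (𝒜 : Set (H →L[ℂ] H)) ∧ S ∈ 𝒜 ∧
      ∀ X ∈ 𝒜, ∀ Y ∈ 𝒜, inner ℂ ξ ((X * Y) ξ) = inner ℂ ξ ((Y * X) ξ) := by
  classical
  let C : Set (H →L[ℂ] H) :=
    {Y | Y ∈ comm R ∧ ∀ X ∈ comm R, inner ℂ ξ ((X * Y) ξ) = inner ℂ ξ ((Y * X) ξ)}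
  have hmul : ∀ {a b : H →L[ℂ] H}, a ∈ C → b ∈ C → a * b ∈ C := by
    intro a b ha hb
    refine ⟨comm_mul ha.1 hb.1, fun X hX => ?_⟩
    have e1 := hb.2 (X * a) (comm_mul hX ha.1)
    have e2 := ha.2 (b * X) (comm_mul hb.1 hX)
    calc inner ℂ ξ ((X * (a * b)) ξ) = inner ℂ ξ (((X * a) * b) ξ) := by rw [mul_assoc]
      _ = inner ℂ ξ ((b * (X * a)) ξ) := e1
      _ = inner ℂ ξ (((b * X) * a) ξ) := by rw [mul_assoc]
      _ = inner ℂ ξ ((a * (b * X)) ξ) := e2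
      _ = inner ℂ ξ (((a * b) * X) ξ) := by rw [mul_assoc]
  have hadd : ∀ {a b : H →L[ℂ] H}, a ∈ C → b ∈ C → a + b ∈ C := by
    intro a b ha hb
    refine ⟨comm_add ha.1 hb.1, fun X hX => ?_⟩
    have e1 := ha.2 X hX
    have e2 := hb.2 X hX
    simp only [mul_add, add_mul, add_apply, inner_add_right, e1, e2]
  have halg : ∀ r : ℂ, algebraMap ℂ (H →L[ℂ] H) r ∈ C := by
    intro r
    refine ⟨comm_algebraMap R r, fun X _ => ?_⟩
    rw [Algebra.commutes r X]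
  have hstar : ∀ {a : H →L[ℂ] H}, a ∈ C → star a ∈ C := by
    intro a ha
    refine ⟨comm_star ha.1, fun X hX => ?_⟩
    have e1 := ha.2 (star X) (comm_star hX)
    have e2 : inner ℂ ξ ((X * star a) ξ) = (starRingEnd ℂ) (inner ℂ ξ ((a * star X) ξ)) := by
      rw [← inner_star_apply, star_mul, star_star]
    have e3 : inner ℂ ξ ((star a * X) ξ) = (starRingEnd ℂ) (inner ℂ ξ ((star X * a) ξ)) := by
      rw [← inner_star_apply, star_mul, star_star]
    rw [e2, e3, e1]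
  let 𝒜 : StarSubalgebra ℂ (H →L[ℂ] H) :=
    { carrier := C
      mul_mem' := hmul
      one_mem' := by simpa using halg 1
      add_mem' := hadd
      zero_mem' := by simpa using halg 0
      algebraMap_mem' := halg
      star_mem' := hstar }
  refine ⟨𝒜, ?_, ?_, ?_⟩
  · -- closedness
    have e : (𝒜 : Set (H →L[ℂ] H)) = comm R ∩
        ⋂ X ∈ comm R, {Y | inner ℂ ξ ((X * Y) ξ) = inner ℂ ξ ((Y * X) ξ)} := by
      ext Y
      simp only [Set.mem_inter_iff, Set.mem_iInter, Set.mem_ofPred_eq]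
      exact Iff.rfl
    rw [e]
    refine (isClosed_comm R).inter (isClosed_biInter fun X _ => ?_)
    refine isClosed_eq ?_ ?_
    · have : Continuous fun Y : H →L[ℂ] H => (X * Y) ξ := by fun_prop
      exact continuous_const.inner this
    · have : Continuous fun Y : H →L[ℂ] H => (Y * X) ξ := by fun_prop
      exact continuous_const.inner this
  · -- `S ∈ 𝒜`
    refine ⟨⟨h1.symm, h2.symm⟩, fun X hX => ?_⟩
    calc inner ℂ ξ ((X * S) ξ) = inner ℂ ξ (X (S ξ)) := rfl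
      _ = inner ℂ ξ (X (R ξ)) := by rw [h3]
      _ = inner ℂ ξ ((X * R) ξ) := rfl
      _ = inner ℂ ξ ((R * X) ξ) := by rw [hX.1]
      _ = inner ℂ ξ (R (X ξ)) := rfl
      _ = inner ℂ (star R ξ) (X ξ) := by
          rw [ContinuousLinearMap.star_eq_adjoint, ContinuousLinearMap.adjoint_inner_left]
      _ = inner ℂ (star S ξ) (X ξ) := by rw [h4]
      _ = inner ℂ ξ (S (X ξ)) := by
          rw [ContinuousLinearMap.star_eq_adjoint, ContinuousLinearMap.adjoint_inner_left]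
      _ = inner ℂ ξ ((S * X) ξ) := rfl
  · intro X hX Y hY
    exact hY.2 X hX.1

end Crest.Agent.S0151.Helper81
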