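import Mathlib

/-!
# S0151, package Q2 (helper84): summability of the powers of `T / z`

From `‖T ^ n‖ ≤ exp (-∑ i ∈ I, c i * ⌊n θ i⌋)` for every finite `I` and `∑ c i θ i = ∞`:
pick `I` with `s = ∑ i ∈ I, c i θ i > log (1 / ‖z‖)`; then
`‖(z⁻¹ • T) ^ n‖ ≤ exp (∑ i ∈ I, c i) * (‖z‖⁻¹ * exp (-s)) ^ n`, a convergent geometric series.
-/

set_option autoImplicit false

namespace Crest.Agent.S0151.Helper84

/-- **Q2** (pure analysis): summability of the powers of `T / z` from the norm bound and the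
divergence of `∑ c_i θ_i`. -/
theorem summable_norm_pow_of {A : Type*} [NormedRing A] [NormedAlgebra ℂ A] (T : A)
    (θ c : ℕ → ℝ) (hθ : ∀ i, 0 < θ i ∧ θ i < 1) (hc : ∀ i, 0 ≤ c i)
    (hbound : ∀ (I : Finset ℕ) (n : ℕ),
      ‖T ^ n‖ ≤ Real.exp (-∑ i ∈ I, c i * (⌊(n : ℝ) * θ i⌋ : ℝ)))
    (htop : ∑' i, ENNReal.ofReal (c i * θ i) = ⊤) (z : ℂ) (hz : z ≠ 0) :
    Summable fun n : ℕ => ‖(z⁻¹ • T) ^ n‖ := by
  have hzpos : 0 < ‖z‖ := norm_pos_iff.mpr hz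
  -- a finite set with large partial sum
  obtain ⟨I, hI⟩ : ∃ I : Finset ℕ, Real.log ‖z‖⁻¹ < ∑ i ∈ I, c i * θ i := by
    rw [ENNReal.tsum_eq_iSup_sum, iSup_eq_top] at htop
    obtain ⟨I, hI⟩ := htop (ENNReal.ofReal (Real.log ‖z‖⁻¹)) ENNReal.ofReal_lt_top
    refine ⟨I, ?_⟩
    rw [← ENNReal.ofReal_sum_of_nonneg (fun i _ => mul_nonneg (hc i) (hθ i).1.le)] at hI
    have hq : 0 < ∑ i ∈ I, c i * θ i := ENNReal.ofReal_pos.mp (lt_of_le_of_lt zero_le hI)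
    exact (ENNReal.ofReal_lt_ofReal_iff hq).mp hI
  set s : ℝ := ∑ i ∈ I, c i * θ i with hs
  set C : ℝ := ∑ i ∈ I, c i with hC
  set r : ℝ := ‖z‖⁻¹ * Real.exp (-s) with hr
  have hr0 : 0 ≤ r := by positivity
  have hr1 : r < 1 := by
    have h1 : Real.exp (Real.log ‖z‖⁻¹) = ‖z‖⁻¹ := Real.exp_log (inv_pos.mpr hzpos)
    have h2 : Real.exp (Real.log ‖z‖⁻¹) < Real.exp s := Real.exp_lt_exp.mpr hI
    rw [hr, Real.exp_neg, ← div_eq_mul_inv, div_lt_one (Real.exp_pos s)]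
    rw [h1] at h2
    exact h2
  have hgeo : Summable fun n : ℕ => Real.exp C * r ^ n :=
    (summable_geometric_of_lt_one hr0 hr1).mul_left _
  refine Summable.of_nonneg_of_le (fun n => norm_nonneg _) (fun n => ?_) hgeo
  -- the termwise bound
  have hn1 : ‖(z⁻¹ • T) ^ n‖ = ‖z‖⁻¹ ^ n * ‖T ^ n‖ := by
    rw [smul_pow, norm_smul, norm_pow, norm_inv]
  have hfl : -∑ i ∈ I, c i * (⌊(n : ℝ) * θ i⌋ : ℝ) ≤ C - n * s := by
    have : ∑ i ∈ I, c i * ((n : ℝ) * θ i - 1) ≤ ∑ i ∈ I, c i * (⌊(n : ℝ) * θ i⌋ : ℝ) :=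
      Finset.sum_le_sum fun i _ =>
        mul_le_mul_of_nonneg_left (Int.sub_one_lt_floor _).le (hc i)
    have h3 : ∑ i ∈ I, c i * ((n : ℝ) * θ i - 1) = n * s - C := by
      rw [hs, hC, Finset.mul_sum, ← Finset.sum_sub_distrib]
      exact Finset.sum_congr rfl fun i _ => by ring
    linarith
  have hT : ‖T ^ n‖ ≤ Real.exp C * Real.exp (-s) ^ n := by
    refine (hbound I n).trans ?_
    rw [← Real.exp_nat_mul, ← Real.exp_add]
    exact Real.exp_le_exp.mpr (by linarith)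
  calc ‖(z⁻¹ • T) ^ n‖ = ‖z‖⁻¹ ^ n * ‖T ^ n‖ := hn1
    _ ≤ ‖z‖⁻¹ ^ n * (Real.exp C * Real.exp (-s) ^ n) :=
        mul_le_mul_of_nonneg_left hT (by positivity)
    _ = Real.exp C * r ^ n := by rw [hr, mul_pow]; ring

end Crest.Agent.S0151.Helper84
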