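import Mathlib
import Crest.Prelude.Def_ProductShift
import Crest.Agent.Lib.S0151.Helper21A2
import Crest.Agent.Lib.S0151.Helper26R
import Crest.Agent.Lib.S0151.Helper57C2
import Crest.Agent.Lib.S0151.Helper28B
import Crest.Agent.Lib.S0151.Helper30Q1
import Crest.Agent.Lib.S0151.Helper12C1
import Crest.Agent.Lib.S0151.Helper54MV
import Crest.Agent.Lib.S0151.Helper81A1
import Crest.Agent.Lib.S0151.Helper84Q2
import Crest.Agent.Lib.S0151.Helper43D

/-!
# S0151 — assembly (helper48)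
-/

set_option autoImplicit false

open MeasureTheory
open Crest.AnalysisR.ProductShift

namespace Crest.Agent.S0151


section Abstract

variable {H : Type*} [NormedAddCommGroup H] [InnerProductSpace ℂ H] [CompleteSpace H]

/-- `1 - S` is invertible when the powers of `S` are norm-summable. -/
theorem isUnit_one_sub_of_summable (S : H →L[ℂ] H) (hsum : Summable fun n : ℕ => ‖S ^ n‖) :
    IsUnit (1 - S) := by
  have hs : Summable fun n : ℕ => S ^ n := hsum.of_norm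
  exact isUnit_iff_exists.mpr ⟨∑' n, S ^ n, hs.one_sub_mul_tsum_pow, hs.tsum_pow_mul_one_sub⟩

omit [CompleteSpace H] in
/-- Real part of the state of `r • 1 + L`. -/
theorem re_inner_smul_one_add (r : ℝ) (ξ : H) (hξ : ‖ξ‖ = 1) (L : H →L[ℂ] H)
    (h0 : RCLike.re (inner ℂ ξ (L ξ)) = 0) :
    RCLike.re (inner ℂ ξ ((r • (1 : H →L[ℂ] H) + L) ξ)) = r := by
  have hsm : (r • (1 : H →L[ℂ] H)) ξ = (r : ℂ) • ξ := by
    rw [FunLike.coe_smul, Pi.smul_apply]
    simp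
  rw [FunLike.coe_add, Pi.add_apply, inner_add_right, hsm, inner_smul_right,
    inner_self_eq_norm_sq_to_K, hξ, map_add, h0]
  simp

/-- The case `z ≠ 0`, abstract form. -/
theorem vectorDet_sub_smul_of (ξ : H) (hξ : ‖ξ‖ = 1) (T R : H →L[ℂ] H)
    (hR1 : R * T = T * R) (hR2 : R * star T = star T * R)
    (hR3 : R ξ = T ξ) (hR4 : star R ξ = star T ξ)
    (hmom : ∀ n : ℕ, 1 ≤ n → inner ℂ ξ ((T ^ n) ξ) = 0)
    (z : ℂ) (hz : z ≠ 0) (hsum : Summable fun n : ℕ => ‖(z⁻¹ • T) ^ n‖) :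
    vectorDet ξ (T - z • (1 : H →L[ℂ] H)) = ‖z‖ := by
  set S : H →L[ℂ] H := z⁻¹ • T with hSdef
  have hU : IsUnit (1 - S) := isUnit_one_sub_of_summable S hsum
  -- traciality
  have h2' : star R * T = T * star R := by
    have := congrArg star hR2
    simpa [star_mul] using this.symm
  obtain ⟨𝒜, hcl, hS, htr⟩ := Helper81.exists_tracial_algebra ξ S (z⁻¹ • R)
    (by simp [hSdef, hR1])
    (by simp only [hSdef, star_smul, smul_mul_assoc, mul_smul_comm, h2']; rw [smul_comm])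
    (by simp [hSdef, hR3])
    (by simp [hSdef, star_smul, hR4])
  have hmomS : ∀ n : ℕ, 1 ≤ n → inner ℂ ξ ((S ^ n) ξ) = 0 := by
    intro n hn
    rw [hSdef, smul_pow, FunLike.coe_smul, Pi.smul_apply, inner_smul_right, hmom n hn, mul_zero]
  have h0 := Helper21.state_log_eq_zero ξ hξ 𝒜 hcl htr S hS hsum hmomS
  -- invertibility of `T - z`
  have hTz : T - z • (1 : H →L[ℂ] H) = (-z) • (1 - S) := by
    rw [hSdef, smul_sub, smul_smul, neg_mul, mul_inv_cancel₀ hz]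
    simp only [neg_smul, one_smul]
    abel
  have hUA : IsUnit (T - z • (1 : H →L[ℂ] H)) := by
    rw [hTz]
    obtain ⟨u, hu⟩ := hU
    refine isUnit_iff_exists.mpr ⟨(-z)⁻¹ • (↑u⁻¹ : H →L[ℂ] H), ?_, ?_⟩
    · rw [← hu, smul_mul_smul_comm, mul_inv_cancel₀ (neg_ne_zero.mpr hz), Units.mul_inv, one_smul]
    · rw [← hu, smul_mul_smul_comm, inv_mul_cancel₀ (neg_ne_zero.mpr hz), Units.inv_mul, one_smul]
  rw [Helper28.vectorDet_of_isUnit ξ _ hUA, Helper28.log_scale T z hz hU]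
  have h0' : RCLike.re (inner ℂ ξ
      (cfc Real.log (star (1 - z⁻¹ • T) * (1 - z⁻¹ • T)) ξ)) = 0 := by
    have h00 : inner ℂ ξ (cfc Real.log (star (1 - z⁻¹ • T) * (1 - z⁻¹ • T)) ξ) = 0 := h0
    rw [h00]; simp
  have hre : RCLike.re (inner ℂ ξ (((2 * Real.log ‖z‖) • (1 : H →L[ℂ] H) +
      cfc Real.log (star (1 - z⁻¹ • T) * (1 - z⁻¹ • T))) ξ)) = 2 * Real.log ‖z‖ :=
    re_inner_smul_one_add (2 * Real.log ‖z‖) ξ hξ _ h0'
  rw [hre]
  have : 2 * Real.log ‖z‖ / 2 = Real.log ‖z‖ := by ring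
  rw [this, Real.exp_log (norm_pos_iff.mpr hz)]

/-- The case `z = 0`, abstract form. -/
theorem vectorDet_eq_zero_of (ξ : H) (T : H →L[ℂ] H)
    (hdata : ∀ K : ℝ, ∃ (m : ℕ) (P : Fin m → H →L[ℂ] H) (η : Fin m → H)
      (a : Fin m → ℝ) (ε : ℝ),
      0 < ε ∧ (∀ j, IsSelfAdjoint (P j)) ∧ (∀ j, P j * T = T * P j) ∧
      (∀ j, P j (η j) = η j) ∧ (∀ i j, i ≠ j → P i (η j) = 0) ∧ (∀ j, 0 ≤ a j) ∧
      (∀ j, ‖T (η j)‖ ^ 2 ≤ a j * ‖η j‖ ^ 2) ∧ ∑ j, η j = ξ ∧
      ∑ j, ‖η j‖ ^ 2 * Real.log (a j + ε) ≤ -K) :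
    vectorDet ξ T = 0 := by
  have hbdd : BddBelow (Set.range fun ε : {r : ℝ // 0 < r} =>
      Real.exp (RCLike.re (inner ℂ ξ
        (cfc Real.log (star T * T + ((ε : ℝ) : ℂ) • (1 : H →L[ℂ] H)) ξ)) / 2)) :=
    ⟨0, by rintro _ ⟨ε, rfl⟩; exact (Real.exp_pos _).le⟩
  have hle : ∀ K : ℝ, vectorDet ξ T ≤ Real.exp (-K / 2) := by
    intro K
    obtain ⟨m, P, η, a, ε, hε, hPsa, hPT, hPη, hPη0, ha, hT, hsumη, hK⟩ := hdata K
    have h1 := Helper12.inner_log_le_of_partition T P η a hPsa hPT hPη hPη0 ha hT ε hε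
    rw [hsumη] at h1
    refine (ciInf_le hbdd ⟨ε, hε⟩).trans ?_
    apply Real.exp_le_exp.mpr
    have := h1.trans hK
    simp only at this ⊢
    linarith
  have hge : 0 ≤ vectorDet ξ T := Real.iInf_nonneg fun _ => (Real.exp_pos _).le
  refine le_antisymm ?_ hge
  by_contra hpos
  rw [not_le] at hpos
  -- choose K with exp(-K/2) < vectorDet
  have := hle (-2 * Real.log (vectorDet ξ T / 2))
  have h2 : Real.exp (-(-2 * Real.log (vectorDet ξ T / 2)) / 2) = vectorDet ξ T / 2 := by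
    rw [show -(-2 * Real.log (vectorDet ξ T / 2)) / 2 = Real.log (vectorDet ξ T / 2) by ring,
      Real.exp_log (by linarith)]
  rw [h2] at this
  linarith

end Abstract

/-- **S0151**. -/
theorem main
    (θ c : ℕ → ℝ) (hθ : ∀ i, 0 < θ i ∧ θ i < 1) (hc : ∀ i, 0 ≤ c i)
    (hpos : ∀ᵐ x ∂cubeMeasure, 0 < weight θ c x)
    (hlog : ∫⁻ x, ENNReal.ofReal (- Real.log (weight θ c x)) ∂cubeMeasure = ⊤)
    (T : pairSpace →L[ℂ] pairSpace) (hT : IsWeightedShift θ c T) (z : ℂ) :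
    vectorDet vacuumVector (T - z • (1 : pairSpace →L[ℂ] pairSpace)) = ‖z‖ := by
  by_cases hz : z = 0
  · subst hz
    simp only [zero_smul, sub_zero, norm_zero]
    exact vectorDet_eq_zero_of vacuumVector T
      (fun K => Helper57.exists_partition_data θ c hθ hc hlog T hT K)
  · obtain ⟨R, hR1, hR2, hR3, hR4⟩ := Helper26.exists_right_mult θ c hθ hc T hT
    have hsum : Summable fun n : ℕ => ‖(z⁻¹ • T) ^ n‖ :=
      Helper84.summable_norm_pow_of T θ c hθ hc (fun I n => Helper30.norm_pow_le θ c hθ hc T hT I n)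
        (Helper43.tsum_cost_eq_top θ c hθ hc hpos hlog) z hz
    exact vectorDet_sub_smul_of vacuumVector Helper54.norm_vacuumVector T R hR1 hR2 hR3 hR4
      (fun n hn => Helper54.moments_zero θ c T hT n hn) z hz hsum

end Crest.Agent.S0151
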